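import Vale.Agent.Lib.P240.PermBlocks

open Equiv

namespace Vale.Agent.Lib.P240

section Cycle

variable {Ω : Type*}

/-- `c` acts as a single cycle on `D`, and trivially off `D`. -/
structure CycleOn (c : Perm Ω) (D : Set Ω) : Prop where
  fix : ∀ x, x ∉ D → c x = x
  moved : ∀ x ∈ D, c x ≠ x
  trans : ∀ x ∈ D, ∀ y ∈ D, ∃ k : ℤ, (c ^ k) x = y

theorem CycleOn.unit [Finite Ω] {c : Perm Ω} {D : Set Ω} (h : CycleOn c D) (hodd : ¬ 2 ∣ D.ncard)
    (hne : D.Nonempty) : CoverUnit (Subgroup.zpowers c, D) where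
  fix := by
    intro d hd x hx
    obtain ⟨k, rfl⟩ := Subgroup.mem_zpowers_iff.1 hd
    exact Perm.zpow_apply_eq_self_of_apply_eq_self (h.fix x hx) k
  trans := by
    intro x hx y hy
    obtain ⟨k, hk⟩ := h.trans x hx y hy
    exact ⟨c ^ k, Subgroup.zpow_mem_zpowers c k, hk⟩
  moved := by
    intro x hx
    exact ⟨c, Subgroup.mem_zpowers c, h.moved x hx⟩
  odd := hodd
  ne := hne

theorem isPGroup_zpowers {G : Type*} [Group G] {c : G} {q : ℕ} (hc : c ^ q = 1) :
    IsPGroup q (Subgroup.zpowers c) := by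
  rintro ⟨g, hg⟩
  obtain ⟨n, rfl⟩ := Subgroup.mem_zpowers_iff.1 hg
  refine ⟨1, ?_⟩
  apply Subtype.ext
  simp only [pow_one, Subgroup.coe_pow, OneMemClass.coe_one]
  rw [← zpow_natCast, ← zpow_mul, mul_comm, zpow_mul, zpow_natCast, hc, one_zpow]

theorem exists_cycleOn [Fintype Ω] [DecidableEq Ω] (D : Finset Ω) (hD : 2 ≤ D.card) :
    ∃ c : Perm Ω, CycleOn c (D : Set Ω) ∧ c ^ D.card = 1 ∧ (¬ 2 ∣ D.card → Perm.sign c = 1) := by
  have hnd := D.nodup_toList
  have hlen : 2 ≤ D.toList.length := by rwa [Finset.length_toList]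
  have hcyc : (D.toList.formPerm).IsCycle := List.isCycle_formPerm hnd hlen
  have hsupp : (D.toList.formPerm).support = D := by
    rw [List.support_formPerm_of_nodup _ hnd, Finset.toList_toFinset]
    intro x hx
    rw [hx] at hlen
    simp at hlen
  refine ⟨D.toList.formPerm, ⟨?_, ?_, ?_⟩, ?_, ?_⟩
  · intro x hx
    rw [← Perm.notMem_support, hsupp]
    exact hx
  · intro x hx
    rw [← Perm.mem_support, hsupp]
    exact hx
  · intro x hx y hy
    have hx' : (D.toList.formPerm) x ≠ x := by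
      rw [← Perm.mem_support, hsupp]
      exact hx
    have hy' : (D.toList.formPerm) y ≠ y := by
      rw [← Perm.mem_support, hsupp]
      exact hy
    exact hcyc.exists_zpow_eq hx' hy'
  · have : orderOf (D.toList.formPerm) = D.card := by
      rw [hcyc.orderOf, hsupp]
    rw [← this]
    exact pow_orderOf_eq_one _
  · intro hodd
    rw [hcyc.sign, hsupp]
    have hodd' : Odd D.card := by
      rw [← Nat.not_even_iff_odd, even_iff_two_dvd]
      exact hodd
    rw [hodd'.neg_one_pow]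
    simp

/-- Splitting a finite set into pieces of size `q` and `r`. -/
theorem exists_partition [DecidableEq Ω] (q r : ℕ) (n : ℕ) : ∀ (a b : ℕ) (S : Finset Ω), a + b = n →
    S.card = a * q + b * r →
    ∃ P : Set (Finset Ω), (∀ D ∈ P, D.card = q ∨ D.card = r) ∧ (∀ D ∈ P, D ⊆ S) ∧
      (∀ D ∈ P, ∀ D' ∈ P, D ≠ D' → Disjoint D D') ∧ (∀ x ∈ S, ∃ D ∈ P, x ∈ D) := by
  induction n with
  | zero =>
    intro a b S hab hS
    have ha : a = 0 := by omega
    have hb : b = 0 := by omega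
    subst ha hb
    simp only [zero_mul, add_zero, Finset.card_eq_zero] at hS
    subst hS
    exact ⟨∅, by simp, by simp, by simp, by simp⟩
  | succ n ih =>
    intro a b S hab hS
    have key : ∀ (s a' b' : ℕ), (s = q ∨ s = r) → a' + b' = n → S.card = s + (a' * q + b' * r) →
        ∃ P : Set (Finset Ω), (∀ D ∈ P, D.card = q ∨ D.card = r) ∧ (∀ D ∈ P, D ⊆ S) ∧
          (∀ D ∈ P, ∀ D' ∈ P, D ≠ D' → Disjoint D D') ∧ (∀ x ∈ S, ∃ D ∈ P, x ∈ D) := by
      intro s a' b' hs hab' hcard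
      obtain ⟨D, hDS, hDc⟩ := Finset.exists_subset_card_eq (s := S) (n := s) (by omega)
      have hrest : (S \ D).card = a' * q + b' * r := by
        rw [Finset.card_sdiff_of_subset hDS, hDc]
        omega
      obtain ⟨P, hP1, hP2, hP3, hP4⟩ := ih a' b' (S \ D) hab' hrest
      refine ⟨insert D P, ?_, ?_, ?_, ?_⟩
      · rintro D' (rfl | hD')
        · rw [hDc]; exact hs
        · exact hP1 D' hD'
      · rintro D' (rfl | hD')
        · exact hDS
        · exact (hP2 D' hD').trans Finset.sdiff_subset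
      · have hdj : ∀ D' ∈ P, Disjoint D D' := by
          intro D' hD'
          rw [Finset.disjoint_right]
          intro x hx hxD
          exact (Finset.mem_sdiff.1 (hP2 D' hD' hx)).2 hxD
        rintro D1 (rfl | hD1) D2 (rfl | hD2) hne
        · exact absurd rfl hne
        · exact hdj D2 hD2
        · exact (hdj D1 hD1).symm
        · exact hP3 D1 hD1 D2 hD2 hne
      · intro x hx
        by_cases hxD : x ∈ D
        · exact ⟨D, Set.mem_insert _ _, hxD⟩
        · obtain ⟨D', hD', hxD'⟩ := hP4 x (Finset.mem_sdiff.2 ⟨hx, hxD⟩)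
          exact ⟨D', Set.mem_insert_of_mem _ hD', hxD'⟩
    by_cases ha : a = 0
    · subst ha
      obtain ⟨b', rfl⟩ : ∃ b', b = b' + 1 := ⟨b - 1, by omega⟩
      exact key r 0 b' (Or.inr rfl) (by omega) (by rw [hS]; ring)
    · obtain ⟨a', rfl⟩ : ∃ a', a = a' + 1 := ⟨a - 1, by omega⟩
      exact key q a' b (Or.inl rfl) (by omega) (by rw [hS]; ring)

/-- A choice of cycle on a finset. -/
noncomputable def cyc [Fintype Ω] [DecidableEq Ω] (D : Finset Ω) : Perm Ω :=
  if h : 2 ≤ D.card then Classical.choose (exists_cycleOn D h) else 1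

theorem cyc_spec [Fintype Ω] [DecidableEq Ω] (D : Finset Ω) (h : 2 ≤ D.card) :
    CycleOn (cyc D) (D : Set Ω) ∧ cyc D ^ D.card = 1 ∧ (¬ 2 ∣ D.card → Perm.sign (cyc D) = 1) := by
  unfold cyc
  rw [dif_pos h]
  exact Classical.choose_spec (exists_cycleOn D h)

end Cycle

section Alt

variable {Ω : Type*} [Fintype Ω] [DecidableEq Ω] {ι : Type*}

/-- Case: an alternating block whose size is a nonnegative combination of `q` and `r`. -/
theorem blockCover_alt {q r : ℕ} (hq2 : q ≠ 2) (hr2 : r ≠ 2) (hq0 : q.Prime) (hr0 : r.Prime)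
    (G : Subgroup (Perm Ω)) (B : Ω → ι) (i : ι)
    (hAlt : ∀ g : Perm Ω, Perm.sign g = 1 → (∀ x, g x ≠ x → B x = i) → g ∈ G)
    (a b : ℕ) (hcard : Nat.card {x // B x = i} = a * q + b * r) :
    ∃ Uq Ur h, BlockCover q r G B i Uq Ur h := by
  classical
  let S : Finset Ω := Finset.univ.filter (fun x => B x = i)
  have hS : S.card = a * q + b * r := by
    rw [← hcard, Nat.card_eq_fintype_card, Fintype.card_subtype]
  obtain ⟨P, hP1, hP2, hP3, hP4⟩ := exists_partition (Ω := Ω) q r (a + b) a b S rfl hS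
  have hodd : ∀ s : ℕ, s.Prime → s ≠ 2 → ¬ 2 ∣ s := by
    intro s hs hs2 h2
    exact hs2 ((Nat.prime_dvd_prime_iff_eq Nat.prime_two hs).1 h2).symm
  have hq3 := hq0.two_le
  have hr3 := hr0.two_le
  have hD2 : ∀ D ∈ P, 2 ≤ D.card := by
    intro D hD
    rcases hP1 D hD with h | h <;> omega
  have hDodd : ∀ D ∈ P, ¬ 2 ∣ D.card := by
    intro D hD
    rcases hP1 D hD with h | h <;> rw [h]
    · exact hodd q hq0 hq2
    · exact hodd r hr0 hr2
  have hDne : ∀ D ∈ P, (D : Set Ω).Nonempty := by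
    intro D hD
    have : 0 < D.card := by have := hD2 D hD; omega
    simpa using Finset.card_pos.1 this
  have hDblock : ∀ D ∈ P, ∀ x ∈ D, B x = i := by
    intro D hD x hx
    have := hP2 D hD hx
    simpa [S] using this
  have hcG : ∀ D ∈ P, cyc D ∈ G := by
    intro D hD
    obtain ⟨h1, -, h3⟩ := cyc_spec D (hD2 D hD)
    apply hAlt _ (h3 (hDodd D hD))
    intro x hx
    by_contra hcon
    apply hx
    apply h1.fix
    intro hxD
    exact hcon (hDblock D hD x hxD)
  let mk : Finset Ω → Subgroup (Perm Ω) × Set Ω := fun D => (Subgroup.zpowers (cyc D), (D : Set Ω))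
  have hmkunit : ∀ D ∈ P, CoverUnit (mk D) := by
    intro D hD
    obtain ⟨h1, -, -⟩ := cyc_spec D (hD2 D hD)
    refine h1.unit ?_ (hDne D hD)
    rw [Set.ncard_coe_finset]
    exact hDodd D hD
  refine ⟨mk '' {D | D ∈ P ∧ D.card = q}, mk '' {D | D ∈ P ∧ D.card = r}, 1, ?_⟩
  have hUmem : ∀ u ∈ mk '' {D | D ∈ P ∧ D.card = q} ∪ mk '' {D | D ∈ P ∧ D.card = r},
      ∃ D ∈ P, u = mk D := by
    rintro u (⟨D, ⟨hD, -⟩, rfl⟩ | ⟨D, ⟨hD, -⟩, rfl⟩)
    · exact ⟨D, hD, rfl⟩
    · exact ⟨D, hD, rfl⟩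
  refine
    { pq := ?_
      pr := ?_
      sub := ?_
      unit := ?_
      inb := ?_
      disj := ?_
      hG := one_mem _
      hfix := fun x _ => rfl
      hq := ?_
      hr := ?_
      left := ?_ }
  · rintro _ ⟨D, ⟨hD, hDc⟩, rfl⟩
    obtain ⟨-, h2, -⟩ := cyc_spec D (hD2 D hD)
    rw [hDc] at h2
    exact isPGroup_zpowers h2
  · rintro _ ⟨D, ⟨hD, hDc⟩, rfl⟩
    obtain ⟨-, h2, -⟩ := cyc_spec D (hD2 D hD)
    rw [hDc] at h2
    exact isPGroup_zpowers h2
  · intro u hu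
    obtain ⟨D, hD, rfl⟩ := hUmem u hu
    change Subgroup.zpowers (cyc D) ≤ G
    rw [Subgroup.zpowers_le]
    exact hcG D hD
  · intro u hu
    obtain ⟨D, hD, rfl⟩ := hUmem u hu
    exact hmkunit D hD
  · intro u hu x hx
    obtain ⟨D, hD, rfl⟩ := hUmem u hu
    exact hDblock D hD x hx
  · intro u hu v hv huv
    obtain ⟨D, hD, rfl⟩ := hUmem u hu
    obtain ⟨D', hD', rfl⟩ := hUmem v hv
    have hne : D ≠ D' := by
      rintro rfl
      exact huv rfl
    exact Finset.disjoint_coe.2 (hP3 D hD D' hD' hne)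
  · intro u hu c hc
    have h2 : (1 : Perm Ω) * c * (1 : Perm Ω)⁻¹ = c := by simp
    rw [h2]
    exact (le_iSup₂ (f := fun (v : Subgroup (Perm Ω) × Set Ω)
      (_ : v ∈ mk '' {D | D ∈ P ∧ D.card = q}) => v.1) u hu) hc
  · intro u hu c hc
    simp
  · intro y hy hunc
    exfalso
    have hyS : y ∈ S := by simpa [S] using hy
    obtain ⟨D, hD, hyD⟩ := hP4 y hyS
    refine hunc (mk D) ?_ hyD
    rcases hP1 D hD with h | h
    · exact Or.inl ⟨D, ⟨hD, h⟩, rfl⟩
    · exact Or.inr ⟨D, ⟨hD, h⟩, rfl⟩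

end Alt

section Seven

/-- The cycle `(0 1 2)`. -/
def c7a : Perm (Fin 7) := swap 0 1 * swap 1 2
/-- The cycle `(3 4 5)`. -/
def c7b : Perm (Fin 7) := swap 3 4 * swap 4 5
/-- The even permutation `(0 3)(1 4 2 5)` interchanging `{0,1,2}` and `{3,4,5}`. -/
def c7s : Perm (Fin 7) := swap 0 3 * (swap 1 4 * swap 4 2 * swap 2 5)
/-- The set `{0,1,2}`. -/
def D7a : Finset (Fin 7) := {0, 1, 2}
/-- The set `{3,4,5}`. -/
def D7b : Finset (Fin 7) := {3, 4, 5}

theorem c7a_pow : c7a ^ 3 = 1 := by decide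
theorem c7b_pow : c7b ^ 3 = 1 := by decide
theorem c7s_a : c7s * c7a * c7s⁻¹ = c7b := by decide
theorem c7s_b : c7s * c7b * c7s⁻¹ = c7a⁻¹ := by decide
theorem c7s_sign : Perm.sign c7s = 1 := by decide
theorem c7a_sign : Perm.sign c7a = 1 := by decide
theorem c7b_sign : Perm.sign c7b = 1 := by decide

theorem c7a_on : CycleOn c7a (D7a : Set (Fin 7)) := by
  refine ⟨?_, ?_, ?_⟩
  · have : ∀ x : Fin 7, x ∉ D7a → c7a x = x := by decide
    intro x hx
    exact this x hx
  · have : ∀ x : Fin 7, x ∈ D7a → c7a x ≠ x := by decide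
    intro x hx
    exact this x hx
  · have : ∀ x y : Fin 7, x ∈ D7a → y ∈ D7a → ∃ k ∈ Finset.range 3, (c7a ^ k) x = y := by decide
    intro x hx y hy
    obtain ⟨k, -, hk⟩ := this x y hx hy
    exact ⟨k, by rw [zpow_natCast]; exact hk⟩

theorem c7b_on : CycleOn c7b (D7b : Set (Fin 7)) := by
  refine ⟨?_, ?_, ?_⟩
  · have : ∀ x : Fin 7, x ∉ D7b → c7b x = x := by decide
    intro x hx
    exact this x hx
  · have : ∀ x : Fin 7, x ∈ D7b → c7b x ≠ x := by decide
    intro x hx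
    exact this x hx
  · have : ∀ x y : Fin 7, x ∈ D7b → y ∈ D7b → ∃ k ∈ Finset.range 3, (c7b ^ k) x = y := by decide
    intro x hx y hy
    obtain ⟨k, -, hk⟩ := this x y hx hy
    exact ⟨k, by rw [zpow_natCast]; exact hk⟩

variable {Ω : Type*} {α : Type*}

theorem CycleOn.via {c : Perm α} {D : Set α} (h : CycleOn c D) (e : α ↪ Ω) :
    CycleOn (Perm.viaEmbeddingHom e c) (e '' D) := by
  have happ : ∀ (g : Perm α) (a : α), Perm.viaEmbeddingHom e g (e a) = e (g a) := fun g a =>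
    Perm.viaEmbedding_apply g e a
  have hoff : ∀ (g : Perm α) (x : Ω), x ∉ Set.range e → Perm.viaEmbeddingHom e g x = x :=
    fun g x hx => Perm.viaEmbedding_apply_of_notMem g e x hx
  refine ⟨?_, ?_, ?_⟩
  · intro x hx
    by_cases hxr : x ∈ Set.range e
    · obtain ⟨a, rfl⟩ := hxr
      rw [happ, h.fix a (fun ha => hx ⟨a, ha, rfl⟩)]
    · exact hoff c x hxr
  · rintro _ ⟨a, ha, rfl⟩
    rw [happ]
    intro hh
    exact h.moved a ha (e.injective hh)
  · rintro _ ⟨a, ha, rfl⟩ _ ⟨b, hb, rfl⟩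
    obtain ⟨k, hk⟩ := h.trans a ha b hb
    refine ⟨k, ?_⟩
    rw [← map_zpow, happ, hk]

variable [Fintype Ω] [DecidableEq Ω] {ι : Type*}

/-- Case: an alternating block of size `7`, with `q = 3`. -/
theorem blockCover_seven {r : ℕ} (G : Subgroup (Perm Ω)) (B : Ω → ι) (i : ι)
    (hAlt : ∀ g : Perm Ω, Perm.sign g = 1 → (∀ x, g x ≠ x → B x = i) → g ∈ G)
    (hcard : Nat.card {x // B x = i} = 7) :
    ∃ Uq Ur h, BlockCover 3 r G B i Uq Ur h := by
  classical
  let S : Finset Ω := Finset.univ.filter (fun x => B x = i)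
  have hS : S.card = 7 := by
    rw [← hcard, Nat.card_eq_fintype_card, Fintype.card_subtype]
  let e0 : S ≃ Fin 7 := Finset.equivFinOfCardEq hS
  let e : Fin 7 ↪ Ω := ⟨fun a => (e0.symm a).1, fun a b h => e0.symm.injective (Subtype.ext h)⟩
  have he : ∀ a, B (e a) = i := by
    intro a
    have h1 : (e0.symm a).1 ∈ S := (e0.symm a).2
    exact (Finset.mem_filter.1 h1).2
  have hrange : ∀ x, B x = i → ∃ a, e a = x := by
    intro x hx
    refine ⟨e0 ⟨x, by simpa [S] using hx⟩, ?_⟩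
    change (e0.symm (e0 ⟨x, _⟩)).1 = x
    simp
  have hoff' : ∀ x, B x ≠ i → x ∉ Set.range e := by
    rintro x hx ⟨a, rfl⟩
    exact hx (he a)
  let Φ : Perm (Fin 7) →* Perm Ω := Perm.viaEmbeddingHom e
  have happ : ∀ (g : Perm (Fin 7)) (a : Fin 7), Φ g (e a) = e (g a) := fun g a =>
    Perm.viaEmbedding_apply g e a
  have hoff : ∀ (g : Perm (Fin 7)) (x : Ω), x ∉ Set.range e → Φ g x = x :=
    fun g x hx => Perm.viaEmbedding_apply_of_notMem g e x hx
  have hsign : ∀ g : Perm (Fin 7), Perm.sign (Φ g) = Perm.sign g := by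
    intro g
    have h1 := Perm.sign_extendDomain g (Equiv.ofInjective e.1 e.2)
    have h2 : Φ g = g.extendDomain (Equiv.ofInjective e.1 e.2) := by
      ext x
      by_cases hx : x ∈ Set.range e
      · obtain ⟨a, rfl⟩ := hx
        rw [happ]
        have h3 := Perm.extendDomain_apply_image g (Equiv.ofInjective e.1 e.2) a
        exact congrArg (fun z : Ω => z) h3.symm
      · rw [hoff g x hx]
        have h3 := Perm.extendDomain_apply_not_subtype g (Equiv.ofInjective e.1 e.2) hx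
        exact congrArg (fun z : Ω => z) h3.symm
    rw [h2]
    exact h1
  have hsupp : ∀ (g : Perm (Fin 7)) (x : Ω), Φ g x ≠ x → B x = i := by
    intro g x hx
    by_contra hcon
    exact hx (hoff g x (hoff' x hcon))
  have hmemG : ∀ g : Perm (Fin 7), Perm.sign g = 1 → Φ g ∈ G := by
    intro g hg
    exact hAlt _ (by rw [hsign, hg]) (hsupp g)
  let a1 := Φ c7a
  let a2 := Φ c7b
  let s := Φ c7s
  let D1 : Set Ω := e '' (D7a : Set (Fin 7))
  let D2 : Set Ω := e '' (D7b : Set (Fin 7))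
  have hD1 : CycleOn a1 D1 := c7a_on.via e
  have hD2 : CycleOn a2 D2 := c7b_on.via e
  have hcardD1 : D1.ncard = 3 := by
    change (e '' (D7a : Set (Fin 7))).ncard = 3
    rw [Set.ncard_image_of_injective _ e.injective, Set.ncard_coe_finset]
    rfl
  have hcardD2 : D2.ncard = 3 := by
    change (e '' (D7b : Set (Fin 7))).ncard = 3
    rw [Set.ncard_image_of_injective _ e.injective, Set.ncard_coe_finset]
    rfl
  have hD12 : Disjoint D1 D2 :=
    (Set.disjoint_image_iff e.injective).2 (Finset.disjoint_coe.2 (by decide))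
  have hmem1 : ∀ a, a ∈ D7a → e a ∈ D1 := fun a ha => ⟨a, ha, rfl⟩
  have hmem2 : ∀ a, a ∈ D7b → e a ∈ D2 := fun a ha => ⟨a, ha, rfl⟩
  have hnot1 : ∀ a, a ∉ D7a → e a ∉ D1 := by
    rintro a ha ⟨b, hb, hba⟩
    rw [e.injective hba] at hb
    exact ha hb
  have hnot2 : ∀ a, a ∉ D7b → e a ∉ D2 := by
    rintro a ha ⟨b, hb, hba⟩
    rw [e.injective hba] at hb
    exact ha hb
  have hall : ∀ a : Fin 7, a ∈ D7a ∨ a ∈ D7b ∨ a = 6 := by decide
  have hne1 : D1.Nonempty := ⟨e 0, hmem1 0 (by decide)⟩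
  have hne2 : D2.Nonempty := ⟨e 3, hmem2 3 (by decide)⟩
  have hodd3 : ¬ 2 ∣ 3 := by decide
  let u1 : Subgroup (Perm Ω) × Set Ω := (Subgroup.zpowers a1, D1)
  let u2 : Subgroup (Perm Ω) × Set Ω := (Subgroup.zpowers a2, D2)
  have hu1 : CoverUnit u1 := hD1.unit (by rw [hcardD1]; exact hodd3) hne1
  have hu2 : CoverUnit u2 := hD2.unit (by rw [hcardD2]; exact hodd3) hne2
  have hU : ∀ u ∈ ({u1, u2} : Set (Subgroup (Perm Ω) × Set Ω)) ∪ ∅, u = u1 ∨ u = u2 := by
    rintro u (hu | hu)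
    · rcases hu with rfl | hu
      · exact Or.inl rfl
      · exact Or.inr hu
    · exact absurd hu (by simp)
  have hU1 : u1 ∈ ({u1, u2} : Set (Subgroup (Perm Ω) × Set Ω)) ∪ ∅ := Or.inl (Or.inl rfl)
  have hU2 : u2 ∈ ({u1, u2} : Set (Subgroup (Perm Ω) × Set Ω)) ∪ ∅ := Or.inl (Or.inr rfl)
  have hsup1 : Subgroup.zpowers a1 ≤ ⨆ v ∈ ({u1, u2} : Set (Subgroup (Perm Ω) × Set Ω)), v.1 :=
    le_iSup₂ (f := fun (v : Subgroup (Perm Ω) × Set Ω)
      (_ : v ∈ ({u1, u2} : Set (Subgroup (Perm Ω) × Set Ω))) => v.1) u1 (Or.inl rfl)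
  have hsup2 : Subgroup.zpowers a2 ≤ ⨆ v ∈ ({u1, u2} : Set (Subgroup (Perm Ω) × Set Ω)), v.1 :=
    le_iSup₂ (f := fun (v : Subgroup (Perm Ω) × Set Ω)
      (_ : v ∈ ({u1, u2} : Set (Subgroup (Perm Ω) × Set Ω))) => v.1) u2 (Or.inr rfl)
  have hs1 : s * a1 * s⁻¹ = a2 := by
    change Φ c7s * Φ c7a * (Φ c7s)⁻¹ = Φ c7b
    rw [← map_inv, ← map_mul, ← map_mul, c7s_a]
  have hs2 : s * a2 * s⁻¹ = a1⁻¹ := by
    change Φ c7s * Φ c7b * (Φ c7s)⁻¹ = (Φ c7a)⁻¹
    rw [← map_inv, ← map_inv, ← map_mul, ← map_mul, c7s_b]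
  refine ⟨{u1, u2}, ∅, s, ?_⟩
  refine
    { pq := ?_
      pr := fun u hu => absurd hu (by simp)
      sub := ?_
      unit := ?_
      inb := ?_
      disj := ?_
      hG := hmemG c7s c7s_sign
      hfix := fun x hx => hoff _ x (hoff' x hx)
      hq := ?_
      hr := fun u hu => absurd hu (by simp)
      left := ?_ }
  · rintro u (rfl | hu)
    · exact isPGroup_zpowers (by rw [← map_pow, c7a_pow, map_one])
    · rw [Set.mem_singleton_iff] at hu
      subst hu
      exact isPGroup_zpowers (by rw [← map_pow, c7b_pow, map_one])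
  · intro u hu
    rcases hU u hu with rfl | rfl
    · change Subgroup.zpowers a1 ≤ G
      rw [Subgroup.zpowers_le]
      exact hmemG c7a c7a_sign
    · change Subgroup.zpowers a2 ≤ G
      rw [Subgroup.zpowers_le]
      exact hmemG c7b c7b_sign
  · intro u hu
    rcases hU u hu with rfl | rfl
    · exact hu1
    · exact hu2
  · intro u hu x hx
    rcases hU u hu with rfl | rfl
    · obtain ⟨a, -, rfl⟩ := hx
      exact he a
    · obtain ⟨a, -, rfl⟩ := hx
      exact he a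
  · intro u hu v hv huv
    rcases hU u hu with rfl | rfl <;> rcases hU v hv with rfl | rfl
    · exact absurd rfl huv
    · exact hD12
    · exact hD12.symm
    · exact absurd rfl huv
  · rintro u (rfl | hu) c hc
    · obtain ⟨k, rfl⟩ := Subgroup.mem_zpowers_iff.1 hc
      rw [← conj_zpow]
      rw [hs1]
      exact hsup2 (Subgroup.zpow_mem_zpowers _ _)
    · rw [Set.mem_singleton_iff] at hu
      subst hu
      obtain ⟨k, rfl⟩ := Subgroup.mem_zpowers_iff.1 hc
      rw [← conj_zpow]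
      rw [hs2]
      exact hsup1 (zpow_mem (inv_mem (Subgroup.mem_zpowers _)) _)
  · intro y hy hunc
    obtain ⟨a, rfl⟩ := hrange y hy
    have ha6 : a = 6 := by
      rcases hall a with h1 | h1 | h1
      · exact absurd (hmem1 a h1) (hunc u1 hU1)
      · exact absurd (hmem2 a h1) (hunc u2 hU2)
      · exact h1
    subst ha6
    refine ⟨⟨e 0, fun h0 => absurd (e.injective h0) (by decide), he 0⟩, ?_, ?_, ?_⟩
    · intro x hx hxy
      obtain ⟨b, rfl⟩ := hrange x hx
      rcases hall b with h1 | h1 | h1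
      · exact ⟨u1, hU1, hmem1 b h1⟩
      · exact ⟨u2, hU2, hmem2 b h1⟩
      · exact absurd (by rw [h1]) hxy
    · change Φ c7s (e 6) = e 6
      rw [happ]
      congr 1
    · intro u hu
      right
      rcases hU u hu with rfl | rfl
      · refine ⟨e 0, hmem1 0 (by decide), ?_, ?_⟩
        · change Φ c7s (e 0) ∉ D1
          rw [happ]
          exact hnot1 _ (by decide)
        · change Φ c7s (e 0) ≠ e 6
          rw [happ]
          intro h0
          exact absurd (e.injective h0) (by decide)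
      · refine ⟨e 3, hmem2 3 (by decide), ?_, ?_⟩
        · change Φ c7s (e 3) ∉ D2
          rw [happ]
          exact hnot2 _ (by decide)
        · change Φ c7s (e 3) ≠ e 6
          rw [happ]
          intro h0
          exact absurd (e.injective h0) (by decide)

end Seven

section Group

variable {Ω : Type*} [Finite Ω] {ι : Type*}

/-- The unit of an `s`-group supported on a block, with an orbit covering all but at most one point
of the block. -/
theorem exists_group_unit {s : ℕ} [hs : Fact s.Prime] (hs2 : s ≠ 2) (B : Ω → ι) (i : ι)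
    (S : Subgroup (Perm Ω)) (hSp : IsPGroup s S) (hSupp : ∀ c ∈ S, ∀ x, B x ≠ i → c x = x)
    (x0 : Ω) (hx0 : B x0 = i) (hmv : ∃ c ∈ S, c x0 ≠ x0)
    (hcov : (∀ x, B x = i → ∃ c ∈ S, c x0 = x) ∨
      ∃ y0, (∀ x, B x = i → x ≠ y0 → ∃ c ∈ S, c x0 = x) ∧
        ∀ b, Nat.card {x // B x = i} ≠ 2 ^ b) :
    ∃ Δ : Set Ω, CoverUnit (S, Δ) ∧ (∀ x ∈ Δ, B x = i) ∧
      ∀ y, B y = i → y ∉ Δ →
        (∃ x, x ≠ y ∧ B x = i) ∧ (∀ x, B x = i → x ≠ y → x ∈ Δ) ∧ ∀ b, Δ.ncard + 1 ≠ 2 ^ b := by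
  classical
  let Δ : Set Ω := {x | ∃ c ∈ S, c x0 = x}
  have hΔ : ∀ x, x ∈ Δ ↔ ∃ c ∈ S, c x0 = x := fun x => Iff.rfl
  have hx0Δ : x0 ∈ Δ := ⟨1, one_mem _, rfl⟩
  have hΔblock : ∀ x ∈ Δ, B x = i := by
    rintro _ ⟨c, hc, rfl⟩
    exact block_preserved B (hSupp c hc) hx0
  -- the orbit as a `MulAction` orbit
  have horb : (MulAction.orbit S x0 : Set Ω) = Δ := by
    ext x
    constructor
    · rintro ⟨c, rfl⟩
      exact ⟨c.1, c.2, rfl⟩
    · rintro ⟨c, hc, rfl⟩
      exact ⟨⟨c, hc⟩, rfl⟩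
  have hcardΔ : ∃ n, Δ.ncard = s ^ n := by
    haveI : Finite (MulAction.orbit S x0) := Subtype.finite
    obtain ⟨n, hn⟩ := hSp.card_orbit x0
    refine ⟨n, ?_⟩
    rw [← horb, ← Nat.card_coe_set_eq]
    exact hn
  have hodd : ¬ 2 ∣ Δ.ncard := by
    obtain ⟨n, hn⟩ := hcardΔ
    rw [hn]
    intro h2
    have := Nat.prime_two.dvd_of_dvd_pow h2
    exact hs2 ((Nat.prime_dvd_prime_iff_eq Nat.prime_two hs.out).1 this).symm
  refine ⟨Δ, ?_, hΔblock, ?_⟩
  · refine ⟨?_, ?_, ?_, hodd, ⟨x0, hx0Δ⟩⟩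
    · intro c hc x hx
      change x ∉ Δ at hx
      by_cases hxi : B x = i
      · rcases hcov with h1 | ⟨y0, h1, -⟩
        · exact absurd (h1 x hxi) hx
        · by_contra hcx
          have hcxi : B (c x) = i := block_preserved B (hSupp c hc) hxi
          have hxy0 : x = y0 := by
            by_contra hne
            exact hx (h1 x hxi hne)
          have h2 : c x ≠ y0 := by
            rw [← hxy0]
            exact hcx
          obtain ⟨c', hc', hc'x⟩ := h1 (c x) hcxi h2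
          apply hx
          refine ⟨c⁻¹ * c', mul_mem (inv_mem hc) hc', ?_⟩
          rw [Perm.mul_apply, hc'x]
          simp
      · exact hSupp c hc x hxi
    · rintro _ ⟨c1, hc1, rfl⟩ _ ⟨c2, hc2, rfl⟩
      refine ⟨c2 * c1⁻¹, mul_mem hc2 (inv_mem hc1), ?_⟩
      simp [Perm.mul_apply]
    · rintro _ ⟨c1, hc1, rfl⟩
      obtain ⟨c, hc, hcx⟩ := hmv
      refine ⟨c1 * c * c1⁻¹, mul_mem (mul_mem hc1 hc) (inv_mem hc1), ?_⟩
      simp only [Perm.mul_apply]
      intro h0
      apply hcx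
      have h1 : c1⁻¹ (c1 x0) = x0 := by simp
      rw [h1] at h0
      exact c1.injective h0
  · intro y hy hyΔ
    rcases hcov with h1 | ⟨y0, h1, h2⟩
    · exact absurd (h1 y hy) hyΔ
    · have hyy0 : y = y0 := by
        by_contra hne
        exact hyΔ (h1 y hy hne)
      subst hyy0
      refine ⟨⟨x0, ?_, hx0⟩, fun x hx hne => h1 x hx hne, ?_⟩
      · rintro rfl
        exact hyΔ hx0Δ
      · intro b hb
        apply h2 b
        rw [← hb]
        have hset : {x | B x = i} = insert y Δ := by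
          ext x
          constructor
          · intro hx
            by_cases hxy : x = y
            · exact Or.inl hxy
            · exact Or.inr (h1 x hx hxy)
          · rintro (rfl | hx)
            · exact hy
            · exact hΔblock x hx
        have hcard : Nat.card {x // B x = i} = ({x | B x = i} : Set Ω).ncard :=
          Nat.card_coe_set_eq _
        rw [hcard, hset, Set.ncard_insert_of_notMem hyΔ (Set.toFinite _)]

theorem blockCover_group_q {q r : ℕ} [hq : Fact q.Prime] (hq2 : q ≠ 2) (G : Subgroup (Perm Ω))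
    (B : Ω → ι) (i : ι) (S : Subgroup (Perm Ω)) (hSG : S ≤ G) (hSp : IsPGroup q S)
    (hSupp : ∀ c ∈ S, ∀ x, B x ≠ i → c x = x) (x0 : Ω) (hx0 : B x0 = i)
    (hmv : ∃ c ∈ S, c x0 ≠ x0)
    (hcov : (∀ x, B x = i → ∃ c ∈ S, c x0 = x) ∨
      ∃ y0, (∀ x, B x = i → x ≠ y0 → ∃ c ∈ S, c x0 = x) ∧ ∀ b, Nat.card {x // B x = i} ≠ 2 ^ b) :
    ∃ Uq Ur h, BlockCover q r G B i Uq Ur h := by
  obtain ⟨Δ, hu, hb, hl⟩ := exists_group_unit hq2 B i S hSp hSupp x0 hx0 hmv hcov
  have hU : ∀ u ∈ ({(S, Δ)} : Set (Subgroup (Perm Ω) × Set Ω)) ∪ ∅, u = (S, Δ) := by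
    rintro u (hu' | hu')
    · exact hu'
    · exact absurd hu' (by simp)
  refine ⟨{(S, Δ)}, ∅, 1, ?_⟩
  refine
    { pq := fun u hu' => by rw [Set.mem_singleton_iff] at hu'; subst hu'; exact hSp
      pr := fun u hu' => absurd hu' (by simp)
      sub := fun u hu' => by rw [hU u hu']; exact hSG
      unit := fun u hu' => by rw [hU u hu']; exact hu
      inb := fun u hu' x hx => by rw [hU u hu'] at hx; exact hb x hx
      disj := fun u hu' v hv huv => absurd ((hU u hu').trans (hU v hv).symm) huv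
      hG := one_mem _
      hfix := fun x _ => rfl
      hq := ?_
      hr := fun u hu' => absurd hu' (by simp)
      left := ?_ }
  · intro u hu' c hc
    have h2 : (1 : Perm Ω) * c * (1 : Perm Ω)⁻¹ = c := by simp
    rw [h2]
    exact (le_iSup₂ (f := fun (v : Subgroup (Perm Ω) × Set Ω)
      (_ : v ∈ ({(S, Δ)} : Set (Subgroup (Perm Ω) × Set Ω))) => v.1) u hu') hc
  · intro y hy hunc
    have hyΔ : y ∉ Δ := hunc (S, Δ) (Or.inl rfl)
    obtain ⟨h1, h2, h3⟩ := hl y hy hyΔ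
    refine ⟨h1, fun x hx hne => ⟨(S, Δ), Or.inl rfl, h2 x hx hne⟩, rfl, ?_⟩
    intro u hu'
    rw [hU u hu']
    exact Or.inl h3

theorem blockCover_group_r {q r : ℕ} [hr : Fact r.Prime] (hr2 : r ≠ 2) (G : Subgroup (Perm Ω))
    (B : Ω → ι) (i : ι) (S : Subgroup (Perm Ω)) (hSG : S ≤ G) (hSp : IsPGroup r S)
    (hSupp : ∀ c ∈ S, ∀ x, B x ≠ i → c x = x) (x0 : Ω) (hx0 : B x0 = i)
    (hmv : ∃ c ∈ S, c x0 ≠ x0)
    (hcov : (∀ x, B x = i → ∃ c ∈ S, c x0 = x) ∨
      ∃ y0, (∀ x, B x = i → x ≠ y0 → ∃ c ∈ S, c x0 = x) ∧ ∀ b, Nat.card {x // B x = i} ≠ 2 ^ b) :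
    ∃ Uq Ur h, BlockCover q r G B i Uq Ur h := by
  obtain ⟨Δ, hu, hb, hl⟩ := exists_group_unit hr2 B i S hSp hSupp x0 hx0 hmv hcov
  have hU : ∀ u ∈ (∅ : Set (Subgroup (Perm Ω) × Set Ω)) ∪ {(S, Δ)}, u = (S, Δ) := by
    rintro u (hu' | hu')
    · exact absurd hu' (by simp)
    · exact hu'
  refine ⟨∅, {(S, Δ)}, 1, ?_⟩
  refine
    { pq := fun u hu' => absurd hu' (by simp)
      pr := fun u hu' => by rw [Set.mem_singleton_iff] at hu'; subst hu'; exact hSp
      sub := fun u hu' => by rw [hU u hu']; exact hSG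
      unit := fun u hu' => by rw [hU u hu']; exact hu
      inb := fun u hu' x hx => by rw [hU u hu'] at hx; exact hb x hx
      disj := fun u hu' v hv huv => absurd ((hU u hu').trans (hU v hv).symm) huv
      hG := one_mem _
      hfix := fun x _ => rfl
      hq := fun u hu' => absurd hu' (by simp)
      hr := fun u _ c _ => by simp
      left := ?_ }
  · intro y hy hunc
    have hyΔ : y ∉ Δ := hunc (S, Δ) (Or.inr rfl)
    obtain ⟨h1, h2, h3⟩ := hl y hy hyΔ
    refine ⟨h1, fun x hx hne => ⟨(S, Δ), Or.inr rfl, h2 x hx hne⟩, rfl, ?_⟩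
    intro u hu'
    rw [hU u hu']
    exact Or.inl h3

end Group

end Vale.Agent.Lib.P240
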