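import Vale.Agent.Lib.P240.Defs

namespace Vale.Agent.Lib.P240

open Finsupp

variable {K : Type*} [CommRing K] {P : Type*} [PartialOrder P]

theorem boundary_single_eq (k : ℕ) (σ : Fin (k + 1) ↪o P) (c : K) :
    boundary K P k (Finsupp.single σ c) =
      c • ∑ i : Fin (k + 1), Finsupp.single ((Fin.succAboveOrderEmb i).trans σ) ((-1 : K) ^ (i : ℕ)) := by
  simp [boundary]

/-- The sign computation for the pairing of faces. -/
theorem neg_one_pow_pair (k : ℕ) (i : Fin (k + 2)) (j : Fin (k + 1)) :
    ((-1 : K) ^ ((i.succAbove j : Fin (k + 2)) : ℕ)) * ((-1 : K) ^ ((j.predAbove i : Fin (k + 1)) : ℕ))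
      = - (((-1 : K) ^ (i : ℕ)) * ((-1 : K) ^ (j : ℕ))) := by
  have h : (((i.succAbove j : Fin (k + 2)) : ℕ) + ((j.predAbove i : Fin (k + 1)) : ℕ) + 1 =
      (i : ℕ) + (j : ℕ)) ∨
      (((i.succAbove j : Fin (k + 2)) : ℕ) + ((j.predAbove i : Fin (k + 1)) : ℕ) =
      (i : ℕ) + (j : ℕ) + 1) := by
    simp only [Fin.succAbove, Fin.predAbove, Fin.lt_def, Fin.val_castSucc, apply_dite Fin.val,
      Fin.val_pred, Fin.coe_castPred, dite_eq_ite, apply_ite Fin.val, Fin.val_succ]
    split_ifs <;> omega
  rcases h with h | h
  · rw [← pow_add, ← pow_add, ← h, pow_succ]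
    ring
  · rw [← pow_add, ← pow_add, h, pow_succ]
    ring

/-- `d² = 0`. -/
theorem boundary_boundary (k : ℕ) (x : ChainSpace K P (k + 2)) :
    boundary K P k (boundary K P (k + 1) x) = 0 := by
  have key : (boundary K P k) ∘ₗ (boundary K P (k + 1)) = 0 := by
    apply Finsupp.lhom_ext
    intro σ c
    simp only [LinearMap.comp_apply, LinearMap.zero_apply]
    rw [boundary_single_eq, map_smul, map_sum]
    simp only [boundary_single_eq, Finset.smul_sum]
    have h2 : ∑ i : Fin (k + 2), ∑ j : Fin (k + 1),
        c • ((-1 : K) ^ (i : ℕ)) • Finsupp.single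
          ((Fin.succAboveOrderEmb j).trans ((Fin.succAboveOrderEmb i).trans σ)) ((-1 : K) ^ (j : ℕ))
        = 0 := by
      rw [← Finset.sum_product']
      refine Finset.sum_involution (fun a _ => (a.1.succAbove a.2, a.2.predAbove a.1)) ?_ ?_ ?_ ?_
      · rintro ⟨i, j⟩ -
        have hc : (Fin.succAboveOrderEmb (j.predAbove i)).trans
            ((Fin.succAboveOrderEmb (i.succAbove j)).trans σ) =
            (Fin.succAboveOrderEmb j).trans ((Fin.succAboveOrderEmb i).trans σ) := by
          ext x
          simp [Fin.succAbove_succAbove_succAbove_predAbove]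
        simp only
        rw [hc, ← smul_add]
        convert smul_zero c using 2
        simp only [Finsupp.smul_single, smul_eq_mul]
        rw [← Finsupp.single_add, neg_one_pow_pair]
        simp
      · rintro ⟨i, j⟩ - - h
        have h1 := congrArg Prod.fst h
        exact (Fin.succAbove_ne i j) h1
      · rintro ⟨i, j⟩ -
        simp
      · rintro ⟨i, j⟩ -
        simp only [Fin.succAbove_succAbove_predAbove, Fin.predAbove_predAbove_succAbove]
    exact h2
  exact LinearMap.congr_fun key x

/-- Cycles: for `k = 0` every chain is a cycle (the empty chain spans degree `-1`). -/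
def IsCyc (K : Type*) [CommRing K] (P : Type*) [PartialOrder P] : ∀ k, ChainSpace K P k → Prop
  | 0, _ => True
  | k + 1, z => boundary K P k z = 0

theorem isCyc_boundary (k : ℕ) (w : ChainSpace K P (k + 1)) : IsCyc K P k (boundary K P k w) := by
  cases k with
  | zero => trivial
  | succ k => exact boundary_boundary k w

/-- Exactness in terms of cycles. -/
theorem reducedAcyclic_iff : ReducedAcyclic K P ↔ ∀ k (z : ChainSpace K P k), IsCyc K P k z →
    ∃ w, boundary K P k w = z := by
  constructor
  · intro h k z hz
    cases k with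
    | zero =>
      have : z ∈ LinearMap.range (boundary K P 0) := by
        rw [h.1]; trivial
      exact this
    | succ k =>
      have : z ∈ LinearMap.ker (boundary K P k) := hz
      rw [h.2 k] at this
      exact this
  · intro h
    constructor
    · rw [eq_top_iff]
      rintro z -
      exact h 0 z trivial
    · intro k
      apply le_antisymm
      · intro z hz
        exact h (k + 1) z hz
      · rintro _ ⟨w, rfl⟩
        exact boundary_boundary k w

/-- Pushing chains forward along an order embedding. -/
noncomputable def chainPush {P' : Type*} [PartialOrder P'] (K : Type*) [CommRing K] (f : P ↪o P')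
    (k : ℕ) : ChainSpace K P k →ₗ[K] ChainSpace K P' k :=
  Finsupp.lmapDomain K K (fun σ => σ.trans f)

theorem chainPush_single {P' : Type*} [PartialOrder P'] (f : P ↪o P') (k : ℕ) (σ : Fin k ↪o P)
    (c : K) : chainPush K f k (Finsupp.single σ c) = Finsupp.single (σ.trans f) c := by
  simp [chainPush]

theorem boundary_chainPush {P' : Type*} [PartialOrder P'] (f : P ↪o P') (k : ℕ)
    (x : ChainSpace K P (k + 1)) :
    boundary K P' k (chainPush K f (k + 1) x) = chainPush K f k (boundary K P k x) := by
  have : (boundary K P' k) ∘ₗ (chainPush K f (k + 1)) = (chainPush K f k) ∘ₗ (boundary K P k) := by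
    apply Finsupp.lhom_ext
    intro σ c
    simp only [LinearMap.comp_apply, chainPush_single, boundary_single_eq, map_smul, map_sum]
    rfl
  exact LinearMap.congr_fun this x

theorem chainPush_injective {P' : Type*} [PartialOrder P'] (f : P ↪o P') (k : ℕ) :
    Function.Injective (chainPush K f k) := by
  apply Finsupp.mapDomain_injective
  intro σ τ h
  ext i
  have := congrArg (fun ρ : Fin k ↪o P' => ρ i) h
  simpa using this

theorem chainPush_isCyc {P' : Type*} [PartialOrder P'] (f : P ↪o P') (k : ℕ)
    (z : ChainSpace K P k) (hz : IsCyc K P k z) : IsCyc K P' k (chainPush K f k z) := by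
  cases k with
  | zero => trivial
  | succ k =>
    change boundary K P' k (chainPush K f (k + 1) z) = 0
    rw [boundary_chainPush]
    change boundary K P k z = 0 at hz
    rw [hz, map_zero]

theorem isCyc_of_chainPush {P' : Type*} [PartialOrder P'] (f : P ↪o P') (k : ℕ)
    (z : ChainSpace K P k) (hz : IsCyc K P' k (chainPush K f k z)) : IsCyc K P k z := by
  cases k with
  | zero => trivial
  | succ k =>
    change boundary K P' k (chainPush K f (k + 1) z) = 0 at hz
    rw [boundary_chainPush] at hz
    change boundary K P k z = 0
    apply chainPush_injective f k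
    rw [hz, map_zero]

/-- Order isomorphic posets: acyclicity transfers. -/
theorem ReducedAcyclic.of_orderIso {P' : Type*} [PartialOrder P'] (e : P ≃o P')
    (h : ReducedAcyclic K P) : ReducedAcyclic K P' := by
  rw [reducedAcyclic_iff] at h ⊢
  intro k z hz
  let f : P ↪o P' := e.toOrderEmbedding
  let f' : P' ↪o P := e.symm.toOrderEmbedding
  have hf : ∀ k (x : ChainSpace K P' k), chainPush K f k (chainPush K f' k x) = x := by
    intro k x
    induction x using Finsupp.induction_linear with
    | zero => simp
    | add a b ha hb => simp only [map_add, ha, hb]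
    | single σ c =>
      simp only [chainPush_single]
      congr 1
      ext i
      simp [f, f']
  obtain ⟨w, hw⟩ := h k (chainPush K f' k z) (chainPush_isCyc f' k z hz)
  refine ⟨chainPush K f (k + 1) w, ?_⟩
  rw [boundary_chainPush, hw, hf]

end Vale.Agent.Lib.P240
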