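import Vale.Agent.Lib.P240.Euler

namespace Vale.Agent.Lib.P240

variable {G : Type*} [Group G] (p : ℕ)

/-- Conjugation by `h` as a map on subgroups. -/
abbrev conjMap (h : G) : G →* G := ((MulAut.conj h : MulAut G) : G →* G)

theorem conjMap_injective (h : G) : Function.Injective (conjMap h) :=
  (MulAut.conj h).injective

theorem conjMap_apply (h x : G) : conjMap h x = h * x * h⁻¹ := rfl

/-- Conjugation on the Quillen poset, as a map. -/
def conjFun (h : G) (E : QuillenPoset G p) : QuillenPoset G p :=
  ⟨E.1.map (conjMap h), by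
    refine ⟨?_, ?_, ?_⟩
    · intro hE
      rw [Subgroup.map_eq_bot_iff_of_injective _ (conjMap_injective h)] at hE
      exact E.2.1 hE
    · rintro _ ⟨a, ha, rfl⟩ _ ⟨b, hb, rfl⟩
      rw [← map_mul, ← map_mul, E.2.2.1 a ha b hb]
    · rintro _ ⟨a, ha, rfl⟩
      rw [← map_pow, E.2.2.2 a ha, map_one]⟩

theorem conjFun_mul (a b : G) (E : QuillenPoset G p) :
    conjFun p (a * b) E = conjFun p a (conjFun p b E) := by
  apply Subtype.ext
  change E.1.map (conjMap (a * b)) = (E.1.map (conjMap b)).map (conjMap a)
  rw [Subgroup.map_map]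
  congr 1
  ext x
  simp [conjMap_apply, mul_assoc]

theorem conjFun_one (E : QuillenPoset G p) : conjFun p (1 : G) E = E := by
  apply Subtype.ext
  change E.1.map (conjMap (1 : G)) = E.1
  ext x
  simp [conjMap_apply]

/-- Conjugation on the Quillen poset, as an order automorphism. -/
def conjIso (h : G) : QuillenPoset G p ≃o QuillenPoset G p where
  toFun := conjFun p h
  invFun := conjFun p h⁻¹
  left_inv E := by rw [← conjFun_mul, inv_mul_cancel, conjFun_one]
  right_inv E := by rw [← conjFun_mul, mul_inv_cancel, conjFun_one]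
  map_rel_iff' := by
    intro E F
    exact Subgroup.map_le_map_iff_of_injective (conjMap_injective h)

theorem conjIso_apply (h : G) (E : QuillenPoset G p) : conjIso p h E = conjFun p h E := rfl

/-- The conjugation homomorphism. -/
def conjHom : G →* (QuillenPoset G p ≃o QuillenPoset G p) where
  toFun := conjIso p
  map_one' := by
    refine RelIso.ext fun E => ?_
    exact conjFun_one p E
  map_mul' a b := by
    refine RelIso.ext fun E => ?_
    exact conjFun_mul p a b E

theorem conjFun_eq_iff (h : G) (E : QuillenPoset G p) :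
    conjFun p h E = E ↔ h ∈ Subgroup.normalizer (E.1 : Set G) := by
  rw [Subgroup.mem_normalizer_iff_map_conj_eq]
  constructor
  · intro hE
    exact congrArg Subtype.val hE
  · intro hE
    exact Subtype.ext hE

instance finiteQuillen [Finite G] : Finite (QuillenPoset G p) := Subtype.finite

/-- General criterion: if `g` commutes with an `r`-subgroup `R`, and no member of the Quillen poset
is normalized by both `g` and `R`, then the Quillen poset is not rationally acyclic. -/
theorem criterion [Finite G] (r : ℕ) [hr : Fact r.Prime] (g : G) (R : Subgroup G)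
    (hR : IsPGroup r R) (hc : ∀ h ∈ R, h * g = g * h)
    (H : ∀ E : QuillenPoset G p, g ∈ Subgroup.normalizer (E.1 : Set G) →
      (∀ h ∈ R, h ∈ Subgroup.normalizer (E.1 : Set G)) → False) :
    ¬ ReducedAcyclic ℚ (QuillenPoset G p) := by
  refine not_acyclic_of_action r hR ((conjHom p).comp R.subtype) (conjIso p g) ?_ ?_
  · intro h E
    change conjFun p h.1 (conjFun p g E) = conjFun p g (conjFun p h.1 E)
    rw [← conjFun_mul, ← conjFun_mul, hc h.1 h.2]
  · intro E hE
    by_contra hcon
    push Not at hcon
    refine H E ((conjFun_eq_iff p g E).1 hE) ?_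
    intro h hh
    exact (conjFun_eq_iff p h E).1 (hcon ⟨h, hh⟩)

end Vale.Agent.Lib.P240
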