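import Mathlib

namespace Vale.Agent.Lib.P240

/-- The Quillen poset of the group `G` at `p`: nonidentity elementary abelian `p`-subgroups
(nontrivial commutative subgroups of exponent dividing `p`), ordered by inclusion. -/
abbrev QuillenPoset (G : Type*) [Group G] (p : ℕ) : Type _ :=
  {E : Subgroup G // E ≠ ⊥ ∧ (∀ x ∈ E, ∀ y ∈ E, x * y = y * x) ∧ ∀ x ∈ E, x ^ p = 1}

/-- The augmented chain space of the order complex of `P` with coefficients in `K`: the free
`K`-module on strictly increasing chains with `k` terms; `k = 0` is the empty chain, in degree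
`-1`. -/
abbrev ChainSpace (K : Type*) [CommRing K] (P : Type*) [PartialOrder P] (k : ℕ) : Type _ :=
  (Fin k ↪o P) →₀ K

/-- The simplicial boundary map: the alternating sum of the faces of a chain. -/
noncomputable def boundary (K : Type*) [CommRing K] (P : Type*) [PartialOrder P] (k : ℕ) :
    ChainSpace K P (k + 1) →ₗ[K] ChainSpace K P k :=
  Finsupp.lift (ChainSpace K P k) K (Fin (k + 1) ↪o P) fun σ =>
    ∑ i : Fin (k + 1), Finsupp.single ((Fin.succAboveOrderEmb i).trans σ) ((-1 : K) ^ (i : ℕ))

/-- All reduced homology groups with coefficients in `K` of the order complex of `P` vanish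
(including degree `-1`, so the empty poset does not qualify). -/
def ReducedAcyclic (K : Type*) [CommRing K] (P : Type*) [PartialOrder P] : Prop :=
  LinearMap.range (boundary K P 0) = ⊤ ∧
    ∀ k, LinearMap.ker (boundary K P k) = LinearMap.range (boundary K P (k + 1))

/-- For a permutation group `G` on `Ω` and a map `B` on `Ω` whose fibres are the blocks of a
partition: the fibre over `i` is *covered* if one of the following holds.
(1) `G` contains every even permutation supported on the fibre, and the size of the fibre is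
`a * q + b * r` for some natural numbers `a, b`, or `q = 3` and the size is `7`.
(2) For `s = q` or `s = r`, `G` has an `s`-subgroup `S` supported on the fibre with a nontrivial orbit
containing all points of the fibre, or all points but one if the size of the fibre is not a power
of `2`. -/
def CoveredBlock {Ω ι : Type*} [Fintype Ω] [DecidableEq Ω] (q r : ℕ)
    (G : Subgroup (Equiv.Perm Ω)) (B : Ω → ι) (i : ι) : Prop :=
  ((∀ g : Equiv.Perm Ω, Equiv.Perm.sign g = 1 → (∀ x, g x ≠ x → B x = i) → g ∈ G) ∧
    ((∃ a b : ℕ, Nat.card {x // B x = i} = a * q + b * r) ∨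
      (q = 3 ∧ Nat.card {x // B x = i} = 7))) ∨
  (∃ s : ℕ, (s = q ∨ s = r) ∧ ∃ S : Subgroup (Equiv.Perm Ω), S ≤ G ∧ IsPGroup s S ∧
    (∀ c ∈ S, ∀ x, B x ≠ i → c x = x) ∧ ∃ x₀ : Ω, B x₀ = i ∧ (∃ c ∈ S, c x₀ ≠ x₀) ∧
      ((∀ x, B x = i → ∃ c ∈ S, c x₀ = x) ∨
        ∃ y₀ : Ω, (∀ x, B x = i → x ≠ y₀ → ∃ c ∈ S, c x₀ = x) ∧
          ∀ b : ℕ, Nat.card {x // B x = i} ≠ 2 ^ b))

end Vale.Agent.Lib.P240
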