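import Vale.Agent.Lib.P240.Defs

open LinearMap

namespace Vale.Agent.Lib.P240

section TraceLemma

set_option linter.unusedSectionVars false

variable {V W : Type*} [AddCommGroup V] [Module ℚ V]
  [AddCommGroup W] [Module ℚ W]

open Classical in
/-- trace of `S` on an invariant subspace (junk value `0` if not invariant). -/
noncomputable def trOn (S : V →ₗ[ℚ] V) (U : Submodule ℚ V) : ℚ :=
  if h : ∀ x ∈ U, S x ∈ U then LinearMap.trace ℚ U (S.restrict h) else 0

theorem trOn_of_inv (S : V →ₗ[ℚ] V) (U : Submodule ℚ V) (h : ∀ x ∈ U, S x ∈ U) :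
    trOn S U = LinearMap.trace ℚ U (S.restrict h) := by
  unfold trOn
  rw [dif_pos h]

variable [FiniteDimensional ℚ V] [FiniteDimensional ℚ W]

theorem trace_eq_add_of_comm (f : V →ₗ[ℚ] W) (S : V →ₗ[ℚ] V) (T : W →ₗ[ℚ] W)
    (h : ∀ x, f (S x) = T (f x)) :
    LinearMap.trace ℚ V S = trOn S (ker f) + trOn T (range f) := by
  have hker : ∀ x ∈ ker f, S x ∈ ker f := by
    intro x hx
    rw [mem_ker] at hx ⊢
    rw [h, hx, map_zero]
  have hran : ∀ x ∈ range f, T x ∈ range f := by
    rintro _ ⟨y, rfl⟩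
    exact ⟨S y, h y⟩
  rw [trOn_of_inv S _ hker, trOn_of_inv T _ hran]
  obtain ⟨g, hg⟩ := LinearMap.exists_rightInverse_of_surjective f.rangeRestrict f.range_rangeRestrict
  have hg' : ∀ w, f.rangeRestrict (g w) = w := fun w => by
    exact LinearMap.congr_fun hg w
  have hg'' : ∀ w : range f, f (g w) = w := fun w => by
    have := hg' w
    exact congrArg Subtype.val this
  let π : V →ₗ[ℚ] ker f := (LinearMap.id - g ∘ₗ f.rangeRestrict).codRestrict (ker f) (by
    intro v
    simp only [LinearMap.sub_apply, LinearMap.id_apply, LinearMap.comp_apply, mem_ker, map_sub]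
    rw [hg'']
    simp)
  have hπ : ∀ v, ((π v : ker f) : V) = v - g (f.rangeRestrict v) := fun v => rfl
  have hdecomp : S = S ∘ₗ ((ker f).subtype ∘ₗ π) + S ∘ₗ (g ∘ₗ f.rangeRestrict) := by
    ext v
    simp [hπ]
  have h1 : LinearMap.trace ℚ V (S ∘ₗ ((ker f).subtype ∘ₗ π)) =
      LinearMap.trace ℚ (ker f) (S.restrict hker) := by
    have : S ∘ₗ ((ker f).subtype ∘ₗ π) = (S ∘ₗ (ker f).subtype) ∘ₗ π := by
      ext; rfl
    rw [this, LinearMap.trace_comp_comm']
    congr 1
    ext ⟨u, hu⟩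
    simp only [LinearMap.comp_apply, Submodule.subtype_apply, LinearMap.coe_restrict_apply]
    rw [hπ]
    have : f.rangeRestrict (S u) = 0 := by
      apply Subtype.ext
      simpa using hker u hu
    rw [this]
    simp
  have h2 : LinearMap.trace ℚ V (S ∘ₗ (g ∘ₗ f.rangeRestrict)) =
      LinearMap.trace ℚ (range f) (T.restrict hran) := by
    have : S ∘ₗ (g ∘ₗ f.rangeRestrict) = (S ∘ₗ g) ∘ₗ f.rangeRestrict := by
      ext; rfl
    rw [this, LinearMap.trace_comp_comm']
    congr 1
    ext w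
    simp only [LinearMap.comp_apply, LinearMap.coe_restrict_apply]
    change f (S (g w)) = T w
    rw [h, hg'']
  conv_lhs => rw [hdecomp]
  rw [map_add, h1, h2]

theorem trOn_top (S : V →ₗ[ℚ] V) : trOn S ⊤ = LinearMap.trace ℚ V S := by
  have h0 : ∀ x ∈ (⊤ : Submodule ℚ V), S x ∈ (⊤ : Submodule ℚ V) := fun _ _ => trivial
  rw [trOn_of_inv S _ h0]
  have := LinearMap.trace_conj' (S.restrict h0) (LinearEquiv.ofTop (⊤ : Submodule ℚ V) rfl)
  rw [← this]
  congr 1

end TraceLemma

variable {P : Type*} [PartialOrder P]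

instance finiteChains [Finite P] (k : ℕ) : Finite (Fin k ↪o P) :=
  Finite.of_injective (fun σ : Fin k ↪o P => (σ : Fin k → P)) DFunLike.coe_injective

/-- The map induced on chains by an order automorphism. -/
noncomputable def chainMap (T : P ≃o P) (k : ℕ) : ChainSpace ℚ P k →ₗ[ℚ] ChainSpace ℚ P k :=
  Finsupp.lmapDomain ℚ ℚ (fun σ => σ.trans T.toOrderEmbedding)

theorem chainMap_single (T : P ≃o P) (k : ℕ) (σ : Fin k ↪o P) (c : ℚ) :
    chainMap T k (Finsupp.single σ c) = Finsupp.single (σ.trans T.toOrderEmbedding) c := by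
  simp [chainMap]

theorem boundary_single (k : ℕ) (σ : Fin (k + 1) ↪o P) (c : ℚ) :
    boundary ℚ P k (Finsupp.single σ c) =
      c • ∑ i : Fin (k + 1), Finsupp.single ((Fin.succAboveOrderEmb i).trans σ) ((-1 : ℚ) ^ (i : ℕ)) := by
  simp [boundary]

theorem boundary_chainMap (T : P ≃o P) (k : ℕ) (x : ChainSpace ℚ P (k + 1)) :
    boundary ℚ P k (chainMap T (k + 1) x) = chainMap T k (boundary ℚ P k x) := by
  have : (boundary ℚ P k) ∘ₗ (chainMap T (k + 1)) = (chainMap T k) ∘ₗ (boundary ℚ P k) := by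
    apply Finsupp.lhom_ext
    intro σ c
    simp only [LinearMap.comp_apply, chainMap_single, boundary_single, map_smul, map_sum]
    rfl
  exact LinearMap.congr_fun this x

theorem trace_chainMap [Finite P] (T : P ≃o P) (k : ℕ) :
    LinearMap.trace ℚ (ChainSpace ℚ P k) (chainMap T k) =
      (Nat.card {σ : Fin k ↪o P // σ.trans T.toOrderEmbedding = σ} : ℚ) := by
  classical
  letI : Fintype (Fin k ↪o P) := Fintype.ofFinite _
  rw [LinearMap.trace_eq_matrix_trace ℚ (Finsupp.basisSingleOne (R := ℚ) (ι := Fin k ↪o P))]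
  rw [Matrix.trace]
  simp only [Matrix.diag_apply, LinearMap.toMatrix_apply, Finsupp.coe_basisSingleOne,
    chainMap_single, Finsupp.basisSingleOne_repr]
  simp only [LinearEquiv.refl_apply, Finsupp.single_apply]
  rw [Nat.card_eq_fintype_card, Fintype.card_subtype]
  simp

theorem trOn_eq_zero_of_isEmpty (k : ℕ) [IsEmpty (Fin k ↪o P)] (S : ChainSpace ℚ P k →ₗ[ℚ] ChainSpace ℚ P k)
    (U : Submodule ℚ (ChainSpace ℚ P k)) : trOn S U = 0 := by
  unfold trOn
  split_ifs with h
  · have : Subsingleton U := inferInstance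
    have h0 : S.restrict h = 0 := Subsingleton.elim _ _
    rw [h0, map_zero]
  · rfl

theorem alternating_trace [Finite P] (hP : ReducedAcyclic ℚ P) (T : P ≃o P) (K : ℕ) :
    ∑ j ∈ Finset.range (K + 1), (-1 : ℚ) ^ j * LinearMap.trace ℚ (ChainSpace ℚ P j) (chainMap T j) =
      (-1) ^ K * trOn (chainMap T K) (range (boundary ℚ P K)) := by
  induction K with
  | zero =>
    simp only [zero_add, Finset.sum_range_one, pow_zero, one_mul]
    rw [hP.1, trOn_top]
  | succ K ih =>
    rw [Finset.sum_range_succ, ih]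
    have h1 := trace_eq_add_of_comm (boundary ℚ P K) (chainMap T (K + 1)) (chainMap T K)
      (boundary_chainMap T K)
    rw [h1, hP.2 K]
    ring

theorem isEmpty_chains [Finite P] : IsEmpty (Fin (Nat.card P + 1) ↪o P) := by
  classical
  letI : Fintype P := Fintype.ofFinite P
  constructor
  intro σ
  have := Fintype.card_le_of_injective σ σ.injective
  simp [Nat.card_eq_fintype_card] at this

theorem alternating_fix_sum [Finite P] (hP : ReducedAcyclic ℚ P) (T : P ≃o P) :
    ∑ j ∈ Finset.range (Nat.card P + 1 + 1), (-1 : ℤ) ^ j *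
      (Nat.card {σ : Fin j ↪o P // σ.trans T.toOrderEmbedding = σ} : ℤ) = 0 := by
  have h := alternating_trace hP T (Nat.card P + 1)
  haveI := isEmpty_chains (P := P)
  rw [trOn_eq_zero_of_isEmpty, mul_zero] at h
  simp only [trace_chainMap] at h
  exact_mod_cast h

/-- The action of `R` on chains fixed by `T`. -/
abbrev fixedChainAction {R : Type*} [Group R] (φ : R →* (P ≃o P)) (T : P ≃o P)
    (hc : ∀ h x, φ h (T x) = T (φ h x)) (k : ℕ) :
    MulAction R {σ : Fin k ↪o P // σ.trans T.toOrderEmbedding = σ} where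
  smul h σ := ⟨σ.1.trans (φ h).toOrderEmbedding, by
    ext i
    have h1 : T (σ.1 i) = σ.1 i := by
      have := congrArg (fun τ : Fin k ↪o P => τ i) σ.2
      simpa using this
    simp only [RelEmbedding.coe_trans, Function.comp_apply, OrderIso.coe_toOrderEmbedding]
    rw [← hc, h1]⟩
  one_smul σ := by
    apply Subtype.ext
    ext i
    change φ 1 (σ.1 i) = σ.1 i
    simp
  mul_smul a b σ := by
    apply Subtype.ext
    ext i
    change φ (a * b) (σ.1 i) = φ a (φ b (σ.1 i))
    simp [RelIso.mul_apply]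

theorem card_fixed_chains_zero (T : P ≃o P) :
    Nat.card {σ : Fin 0 ↪o P // σ.trans T.toOrderEmbedding = σ} = 1 := by
  have h : ∀ σ τ : Fin 0 ↪o P, σ = τ := fun σ τ => by
    ext i
    exact i.elim0
  let σ0 : Fin 0 ↪o P := RelEmbedding.ofIsEmpty _ _
  haveI : Unique {σ : Fin 0 ↪o P // σ.trans T.toOrderEmbedding = σ} :=
    { default := ⟨σ0, h _ _⟩
      uniq := fun τ => Subtype.ext (h _ _) }
  exact Nat.card_unique

theorem not_acyclic_of_action [Finite P] {R : Type*} [Group R] (r : ℕ) [hr : Fact r.Prime]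
    (hR : IsPGroup r R) (φ : R →* (P ≃o P)) (T : P ≃o P)
    (hc : ∀ h x, φ h (T x) = T (φ h x))
    (hfix : ∀ x : P, T x = x → ∃ h, φ h x ≠ x) : ¬ ReducedAcyclic ℚ P := by
  intro hP
  have hsum := alternating_fix_sum hP T
  have hdvd : ∀ j, (r : ℤ) ∣
      (Nat.card {σ : Fin (j + 1) ↪o P // σ.trans T.toOrderEmbedding = σ} : ℤ) := by
    intro j
    letI := fixedChainAction φ T hc (j + 1)
    have h1 := hR.card_modEq_card_fixedPoints
      {σ : Fin (j + 1) ↪o P // σ.trans T.toOrderEmbedding = σ}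
    have hempty : IsEmpty (MulAction.fixedPoints R
        {σ : Fin (j + 1) ↪o P // σ.trans T.toOrderEmbedding = σ}) := by
      constructor
      rintro ⟨σ, hσ⟩
      have hT : T (σ.1 0) = σ.1 0 := by
        have := congrArg (fun τ : Fin (j + 1) ↪o P => τ 0) σ.2
        simpa using this
      obtain ⟨h, hh⟩ := hfix _ hT
      apply hh
      have := congrArg (fun τ : {σ : Fin (j + 1) ↪o P // σ.trans T.toOrderEmbedding = σ} => τ.1 0)
        (hσ h)
      exact this
    have h0 : Nat.card (MulAction.fixedPoints R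
        {σ : Fin (j + 1) ↪o P // σ.trans T.toOrderEmbedding = σ}) = 0 := Nat.card_of_isEmpty
    rw [h0] at h1
    have h2 : r ∣ Nat.card {σ : Fin (j + 1) ↪o P // σ.trans T.toOrderEmbedding = σ} :=
      (Nat.modEq_zero_iff_dvd).1 h1
    exact_mod_cast h2
  rw [Finset.sum_range_succ'] at hsum
  have h3 : (r : ℤ) ∣ ∑ j ∈ Finset.range (Nat.card P + 1), (-1 : ℤ) ^ (j + 1) *
      (Nat.card {σ : Fin (j + 1) ↪o P // σ.trans T.toOrderEmbedding = σ} : ℤ) :=
    Finset.dvd_sum fun j _ => Dvd.dvd.mul_left (hdvd j) _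
  rw [card_fixed_chains_zero] at hsum
  have h4 : (r : ℤ) ∣ 1 := by
    have : (1 : ℤ) = -∑ j ∈ Finset.range (Nat.card P + 1), (-1 : ℤ) ^ (j + 1) *
      (Nat.card {σ : Fin (j + 1) ↪o P // σ.trans T.toOrderEmbedding = σ} : ℤ) := by
      simp only [pow_zero, Nat.cast_one, mul_one] at hsum
      linarith
    rw [this]
    exact (dvd_neg).2 h3
  have h5 : r ∣ 1 := by exact_mod_cast h4
  exact hr.out.one_lt.ne' (Nat.dvd_one.1 h5)

end Vale.Agent.Lib.P240
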