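import Vale.Agent.Lib.P240.BlockCases

open Equiv

namespace Vale.Agent.Lib.P240

variable {Ω ι : Type*} [Fintype Ω] [DecidableEq Ω]

theorem blockCover_of_covered {q r : ℕ} [hq : Fact q.Prime] [hr : Fact r.Prime] (hq2 : q ≠ 2)
    (hr2 : r ≠ 2) (G : Subgroup (Perm Ω)) (B : Ω → ι) (i : ι) (H : CoveredBlock q r G B i) :
    ∃ Uq Ur h, BlockCover q r G B i Uq Ur h := by
  rcases H with ⟨hAlt, ⟨a, b, hab⟩ | ⟨rfl, h7⟩⟩ | ⟨s, hs, S, hSG, hSp, hSupp, x0, hx0, hmv, hcov⟩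
  · exact blockCover_alt hq2 hr2 hq.out hr.out G B i hAlt a b hab
  · exact blockCover_seven G B i hAlt h7
  · rcases hs with rfl | rfl
    · exact blockCover_group_q hq2 G B i S hSG hSp hSupp x0 hx0 hmv hcov
    · exact blockCover_group_r hr2 G B i S hSG hSp hSupp x0 hx0 hmv hcov

theorem blockCover_empty {q r : ℕ} (G : Subgroup (Perm Ω)) (B : Ω → ι) (i : ι)
    (hi : ∀ x, B x ≠ i) : BlockCover q r G B i ∅ ∅ 1 where
  pq := fun u hu => absurd hu (by simp)
  pr := fun u hu => absurd hu (by simp)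
  sub := fun u hu => absurd hu (by simp)
  unit := fun u hu => absurd hu (by simp)
  inb := fun u hu => absurd hu (by simp)
  disj := fun u hu => absurd hu (by simp)
  hG := one_mem _
  hfix := fun _ _ => rfl
  hq := fun u hu => absurd hu (by simp)
  hr := fun u hu => absurd hu (by simp)
  left := fun y hy => absurd hy (hi y)

/-- **Main theorem.** -/
theorem main_general (G : Subgroup (Perm Ω)) (B : Ω → ι)
    (hB : ∀ g ∈ G, ∀ x y, B x = B y → B (g x) = B (g y)) {q r : ℕ} (hq : q.Prime) (hr : r.Prime)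
    (hq2 : q ≠ 2) (hr2 : r ≠ 2) (hqr : q ≠ r) (H : ∀ x : Ω, CoveredBlock q r G B (B x)) :
    ¬ ReducedAcyclic (ZMod q) (QuillenPoset G 2) := by
  classical
  haveI : Fact q.Prime := ⟨hq⟩
  haveI : Fact r.Prime := ⟨hr⟩
  have hex : ∀ i, ∃ Uq Ur h, BlockCover q r G B i Uq Ur h := by
    intro i
    by_cases hi : ∃ x, B x = i
    · obtain ⟨x, rfl⟩ := hi
      exact blockCover_of_covered hq2 hr2 G B (B x) (H x)
    · push Not at hi
      exact ⟨∅, ∅, 1, blockCover_empty G B i hi⟩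
  choose Uq Ur hh hc using hex
  exact perm_blocks G B hB hqr Uq Ur hh hc

/-- The arithmetic of the sizes: all `n ∉ {1, 2, 4}` are `3 a + 5 b` or equal to `7`. -/
theorem size_split (n : ℕ) (h1 : n ≠ 1) (h2 : n ≠ 2) (h4 : n ≠ 4) :
    (∃ a b : ℕ, n = a * 3 + b * 5) ∨ n = 7 := by
  by_cases h7 : n = 7
  · exact Or.inr h7
  left
  have h3 : n % 3 = 0 ∨ n % 3 = 1 ∨ n % 3 = 2 := by omega
  rcases h3 with h | h | h
  · exact ⟨n / 3, 0, by omega⟩
  · exact ⟨(n - 10) / 3, 2, by omega⟩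
  · exact ⟨(n - 5) / 3, 1, by omega⟩

/-- **Alternating blocks.** -/
theorem main_alt (G : Subgroup (Perm Ω)) (B : Ω → ι)
    (hB : ∀ g ∈ G, ∀ x y, B x = B y → B (g x) = B (g y))
    (hAlt : ∀ (i : ι) (g : Perm Ω), Perm.sign g = 1 → (∀ x, g x ≠ x → B x = i) → g ∈ G)
    (hsize : ∀ x : Ω, Nat.card {y // B y = B x} ≠ 1 ∧ Nat.card {y // B y = B x} ≠ 2 ∧
      Nat.card {y // B y = B x} ≠ 4) :
    ¬ ReducedAcyclic (ZMod 3) (QuillenPoset G 2) := by
  refine main_general G B hB (q := 3) (r := 5) Nat.prime_three Nat.prime_five (by norm_num)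
    (by norm_num) (by norm_num) ?_
  intro x
  left
  refine ⟨hAlt (B x), ?_⟩
  obtain ⟨h1, h2, h4⟩ := hsize x
  rcases size_split _ h1 h2 h4 with h | h
  · exact Or.inl h
  · exact Or.inr ⟨rfl, h⟩

end Vale.Agent.Lib.P240
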