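import Vale.Agent.Lib.P240.Smith

namespace Vale.Agent.Lib.P240

universe u v w

section Restrict

variable {P : Type*} [PartialOrder P]

/-- Restricting an automorphism commuting with `T` to the fixed points of `T`. -/
def fixRestrict (T A : P ≃o P) (h : ∀ x, A (T x) = T (A x)) :
    {x : P // T x = x} ≃o {x : P // T x = x} where
  toFun x := ⟨A x.1, by rw [← h, x.2]⟩
  invFun x := ⟨A.symm x.1, by
    apply A.injective
    rw [h]
    simp [x.2]⟩
  left_inv x := by
    apply Subtype.ext
    simp
  right_inv x := by
    apply Subtype.ext
    simp
  map_rel_iff' := by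
    intro a b
    simp

theorem fixRestrict_coe (T A : P ≃o P) (h : ∀ x, A (T x) = T (A x)) (x : {x : P // T x = x}) :
    ((fixRestrict T A h x : {x : P // T x = x}) : P) = A x.1 := rfl

end Restrict

/-- Smith's theorem for finite `q`-groups. -/
theorem smith_pgroup_aux {K : Type w} [Field K] {q : ℕ} [hq : Fact q.Prime] (hqK : (q : K) = 0) :
    ∀ (n : ℕ) (H : Type u) [Group H] [Finite H] (_ : IsPGroup q H) (_ : Nat.card H = n)
      (P : Type v) [PartialOrder P] [Finite P] (φ : H →* (P ≃o P)),
      ReducedAcyclic K P → ReducedAcyclic K {x : P // ∀ h, φ h x = x} := by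
  intro n
  induction n using Nat.strong_induction_on with
  | _ n ih =>
  intro H _ _ hH hn P _ _ φ hP
  by_cases hnt : Nontrivial H
  · -- a central element of order `q`
    haveI := hnt
    have hcenter : Nontrivial (Subgroup.center H) := hH.center_nontrivial
    have hdvd : q ∣ Nat.card (Subgroup.center H) := by
      obtain ⟨m, hm⟩ := IsPGroup.iff_card.1 (hH.to_subgroup (Subgroup.center H))
      rw [hm]
      have hm0 : m ≠ 0 := by
        rintro rfl
        have : Nat.card (Subgroup.center H) = 1 := by simpa using hm
        have h1 : 1 < Nat.card (Subgroup.center H) := Finite.one_lt_card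
        omega
      exact dvd_pow_self q hm0
    obtain ⟨z, hz⟩ := exists_prime_orderOf_dvd_card' q hdvd
    have hz1 : (z : H) ^ q = 1 := by
      have h1 := pow_orderOf_eq_one z
      rw [hz] at h1
      exact_mod_cast congrArg Subtype.val h1
    have hzc : ∀ g : H, g * (z : H) = z * g := fun g => by
      have := (Subgroup.mem_center_iff.1 z.2) g
      exact this
    have hzne : (z : H) ≠ 1 := by
      intro h0
      have : z = 1 := Subtype.ext h0
      rw [this, orderOf_one] at hz
      exact hq.out.one_lt.ne hz
    set T : P ≃o P := φ z with hT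
    have hTq : T ^ q = 1 := by
      rw [hT, ← map_pow, hz1, map_one]
    have hP1 : ReducedAcyclic K {x : P // T x = x} := smith_step hqK hq.out T hTq hP
    have hcomm : ∀ (g : H) (x : P), φ g (T x) = T (φ g x) := by
      intro g x
      rw [hT]
      change (φ g * φ z) x = (φ z * φ g) x
      rw [← map_mul, ← map_mul, hzc]
    -- the action on the fixed points of `T`
    let φ1 : H →* ({x : P // T x = x} ≃o {x : P // T x = x}) :=
      { toFun := fun g => fixRestrict T (φ g) (hcomm g)
        map_one' := by
          refine RelIso.ext fun x => Subtype.ext ?_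
          simp [fixRestrict_coe]
        map_mul' := by
          intro a b
          refine RelIso.ext fun x => Subtype.ext ?_
          simp [fixRestrict_coe, RelIso.mul_apply] }
    have hφ1 : ∀ (g : H) (x : {x : P // T x = x}), ((φ1 g x : {x : P // T x = x}) : P) = φ g x.1 :=
      fun _ _ => rfl
    let N : Subgroup H := Subgroup.zpowers (z : H)
    haveI hN : N.Normal := by
      constructor
      intro a ha g
      obtain ⟨i, rfl⟩ := Subgroup.mem_zpowers_iff.1 ha
      have hcz : g * (z : H) ^ i * g⁻¹ = (z : H) ^ i := by
        have : Commute g ((z : H) ^ i) := (Commute.zpow_right (hzc g) i)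
        rw [this.eq]
        simp
      rw [hcz]
      exact Subgroup.zpow_mem_zpowers _ _
    have hker : N ≤ φ1.ker := by
      rw [Subgroup.zpowers_le]
      rw [MonoidHom.mem_ker]
      refine RelIso.ext fun x => Subtype.ext ?_
      rw [hφ1]
      exact x.2
    let φ2 : (H ⧸ N) →* ({x : P // T x = x} ≃o {x : P // T x = x}) :=
      QuotientGroup.lift N φ1 hker
    have hφ2 : ∀ (g : H) (x : {x : P // T x = x}), φ2 (g : H ⧸ N) x = φ1 g x := fun _ _ => rfl
    have hcardlt : Nat.card (H ⧸ N) < n := by
      have h1 := Subgroup.card_eq_card_quotient_mul_card_subgroup N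
      have h2 : 1 < Nat.card N := by
        haveI : Nontrivial N := by
          refine ⟨⟨⟨z, Subgroup.mem_zpowers _⟩, 1, ?_⟩⟩
          intro h
          exact hzne (congrArg Subtype.val h)
        exact Finite.one_lt_card
      have h3 : 0 < Nat.card (H ⧸ N) := Nat.card_pos
      rw [← hn, h1]
      nlinarith
    have hres := ih _ hcardlt (H ⧸ N) (hH.to_quotient N) rfl {x : P // T x = x} φ2 hP1
    -- identify the fixed posets
    refine ReducedAcyclic.of_orderIso ?_ hres
    exact
      { toFun := fun x => ⟨x.1.1, fun h => by
          have := x.2 (h : H ⧸ N)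
          rw [hφ2] at this
          exact congrArg Subtype.val this⟩
        invFun := fun x => ⟨⟨x.1, x.2 z⟩, fun h => by
          induction h using QuotientGroup.induction_on with
          | H g =>
            rw [hφ2]
            apply Subtype.ext
            rw [hφ1]
            exact x.2 g⟩
        left_inv := fun x => rfl
        right_inv := fun x => rfl
        map_rel_iff' := Iff.rfl }
  · -- trivial group
    have hsub : Subsingleton H := not_nontrivial_iff_subsingleton.1 hnt
    have h1 : ∀ (h : H) (x : P), φ h x = x := by
      intro h x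
      have : h = 1 := Subsingleton.elim _ _
      rw [this, map_one]
      rfl
    refine ReducedAcyclic.of_orderIso ?_ hP
    exact
      { toFun := fun x => ⟨x, fun h => h1 h x⟩
        invFun := fun x => x.1
        left_inv := fun x => rfl
        right_inv := fun x => rfl
        map_rel_iff' := Iff.rfl }

theorem smith_pgroup {K : Type w} [Field K] {q : ℕ} [hq : Fact q.Prime] (hqK : (q : K) = 0)
    {H : Type u} [Group H] [Finite H] (hH : IsPGroup q H)
    {P : Type v} [PartialOrder P] [Finite P] (φ : H →* (P ≃o P)) (hP : ReducedAcyclic K P) :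
    ReducedAcyclic K {x : P // ∀ h, φ h x = x} :=
  smith_pgroup_aux hqK _ H hH rfl P φ hP

end Vale.Agent.Lib.P240
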