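import Vale.Agent.Lib.P240.Chains

namespace Vale.Agent.Lib.P240

variable {P : Type*} [PartialOrder P]

section Base

variable {R S : Type*} [CommRing R] [CommRing S]

/-- Change of coefficients on chains. -/
noncomputable def chainBase (f : R →+* S) (k : ℕ) : ChainSpace R P k →+ ChainSpace S P k :=
  Finsupp.mapRange.addMonoidHom f.toAddMonoidHom

theorem chainBase_single (f : R →+* S) (k : ℕ) (s : Fin k ↪o P) (c : R) :
    chainBase f k (Finsupp.single s c) = Finsupp.single s (f c) := by
  simp [chainBase]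

theorem chainBase_apply (f : R →+* S) (k : ℕ) (x : ChainSpace R P k) (s : Fin k ↪o P) :
    chainBase f k x s = f (x s) := by
  simp [chainBase]

theorem chainBase_boundary (f : R →+* S) (k : ℕ) (x : ChainSpace R P (k + 1)) :
    chainBase f k (boundary R P k x) = boundary S P k (chainBase f (k + 1) x) := by
  induction x using Finsupp.induction_linear with
  | zero => simp
  | add a b ha hb => simp only [map_add, ha, hb]
  | single s c =>
    rw [chainBase_single, boundary_single_eq, boundary_single_eq, Finset.smul_sum, Finset.smul_sum,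
      map_sum]
    refine Finset.sum_congr rfl fun i _ => ?_
    simp only [Finsupp.smul_single, smul_eq_mul]
    rw [chainBase_single, map_mul, map_pow, map_neg, map_one]

theorem chainBase_injective (f : R →+* S) (hf : Function.Injective f) (k : ℕ) :
    Function.Injective (chainBase (P := P) f k) := by
  intro x y h
  ext s
  apply hf
  rw [← chainBase_apply, ← chainBase_apply, h]

end Base

section Lift

variable {q : ℕ} [hq : Fact q.Prime]

theorem isCyc_base {R S : Type*} [CommRing R] [CommRing S] (f : R →+* S) (k : ℕ)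
    (z : ChainSpace R P k) (hz : IsCyc R P k z) : IsCyc S P k (chainBase f k z) := by
  cases k with
  | zero => trivial
  | succ k =>
    change boundary S P k (chainBase f (k + 1) z) = 0
    rw [← chainBase_boundary]
    change boundary R P k z = 0 at hz
    rw [hz, map_zero]

/-- Every mod `q` chain lifts to an integral chain. -/
theorem exists_lift (k : ℕ) (w : ChainSpace (ZMod q) P k) :
    ∃ w' : ChainSpace ℤ P k, chainBase (Int.castRingHom (ZMod q)) k w' = w := by
  induction w using Finsupp.induction_linear with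
  | zero => exact ⟨0, by simp⟩
  | add a b ha hb =>
    obtain ⟨a', rfl⟩ := ha
    obtain ⟨b', rfl⟩ := hb
    exact ⟨a' + b', map_add _ _ _⟩
  | single s c =>
    obtain ⟨c', rfl⟩ := ZMod.intCast_surjective c
    exact ⟨Finsupp.single s c', by rw [chainBase_single]; rfl⟩

/-- An integral chain vanishing mod `q` is divisible by `q`. -/
theorem exists_div (k : ℕ) (u : ChainSpace ℤ P k)
    (hu : chainBase (Int.castRingHom (ZMod q)) k u = 0) :
    ∃ u' : ChainSpace ℤ P k, u = (q : ℤ) • u' := by
  have hdvd : ∀ s, (q : ℤ) ∣ u s := by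
    intro s
    have h := congrArg (fun y : ChainSpace (ZMod q) P k => y s) hu
    simp only [chainBase_apply] at h
    exact (ZMod.intCast_zmod_eq_zero_iff_dvd _ _).1 h
  refine ⟨u.mapRange (fun a => a / (q : ℤ)) (by simp), ?_⟩
  ext s
  simp only [Finsupp.smul_apply, Finsupp.mapRange_apply, smul_eq_mul]
  rw [Int.mul_ediv_cancel' (hdvd s)]

/-- Successive approximation of an integral cycle by boundaries modulo powers of `q`. -/
theorem exists_approx (h : ReducedAcyclic (ZMod q) P) (k : ℕ) (z : ChainSpace ℤ P k)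
    (hz : IsCyc ℤ P k z) (N : ℕ) :
    ∃ (w : ChainSpace ℤ P (k + 1)) (z' : ChainSpace ℤ P k),
      z = boundary ℤ P k w + ((q : ℤ) ^ N) • z' := by
  induction N with
  | zero => exact ⟨0, z, by simp⟩
  | succ N ih =>
    obtain ⟨w, z', hzw⟩ := ih
    have hq0 : ((q : ℤ) ^ N) ≠ 0 := pow_ne_zero _ (by exact_mod_cast hq.out.ne_zero)
    have hz' : IsCyc ℤ P k z' := by
      cases k with
      | zero => trivial
      | succ k =>
        change boundary ℤ P k z = 0 at hz
        change boundary ℤ P k z' = 0
        rw [hzw, map_add, boundary_boundary, zero_add, map_zsmul] at hz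
        exact (smul_eq_zero.1 hz).resolve_left hq0
    obtain ⟨wb, hwb⟩ := reducedAcyclic_iff.1 h k _ (isCyc_base (Int.castRingHom (ZMod q)) k z' hz')
    obtain ⟨w', rfl⟩ := exists_lift (k + 1) wb
    have h0 : chainBase (Int.castRingHom (ZMod q)) k (z' - boundary ℤ P k w') = 0 := by
      rw [map_sub, chainBase_boundary, hwb, sub_self]
    obtain ⟨z'', hz''⟩ := exists_div k _ h0
    refine ⟨w + ((q : ℤ) ^ N) • w', z'', ?_⟩
    have h1 : z' = boundary ℤ P k w' + (q : ℤ) • z'' := by
      rw [← hz'']; abel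
    rw [hzw, map_add, map_zsmul, pow_succ, mul_smul, add_assoc, ← smul_add, ← h1]

end Lift

section Denominators

variable {α : Type*}

/-- Clearing denominators of a rational vector. -/
theorem exists_clear (x : α →₀ ℚ) : ∃ D : ℤ, D ≠ 0 ∧ ∃ z : α →₀ ℤ, ∀ s, (z s : ℚ) = (D : ℚ) * x s := by
  induction x using Finsupp.induction_linear with
  | zero => exact ⟨1, one_ne_zero, 0, by simp⟩
  | add a b ha hb =>
    obtain ⟨D1, hD1, z1, h1⟩ := ha
    obtain ⟨D2, hD2, z2, h2⟩ := hb
    refine ⟨D1 * D2, mul_ne_zero hD1 hD2, D2 • z1 + D1 • z2, fun s => ?_⟩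
    simp only [Finsupp.add_apply, Finsupp.smul_apply, smul_eq_mul]
    push_cast
    rw [h1, h2]
    ring
  | single s c =>
    classical
    refine ⟨c.den, by exact_mod_cast c.den_ne_zero, Finsupp.single s c.num, fun t => ?_⟩
    by_cases hst : s = t
    · subst hst
      simp only [Finsupp.single_eq_same]
      push_cast
      rw [mul_comm]
      exact (Rat.mul_den_eq_num c).symm
    · simp [Finsupp.single_eq_of_ne (Ne.symm hst)]

end Denominators

section UCT

variable {q : ℕ} [hq : Fact q.Prime]

theorem exists_integral_functional {α : Type*} [Finite α] (φ : (α →₀ ℚ) →ₗ[ℚ] ℚ) :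
    ∃ L : ℤ, L ≠ 0 ∧ ∀ u : α →₀ ℤ, ∃ n : ℤ,
      (n : ℚ) = (L : ℚ) * φ (Finsupp.mapRange.addMonoidHom (Int.castRingHom ℚ).toAddMonoidHom u) := by
  classical
  letI : Fintype α := Fintype.ofFinite α
  obtain ⟨L, hL, zy, hzy⟩ := exists_clear
    (Finsupp.equivFunOnFinite.symm (fun s => φ (Finsupp.single s 1)) : α →₀ ℚ)
  refine ⟨L, hL, fun u => ?_⟩
  induction u using Finsupp.induction_linear with
  | zero => exact ⟨0, by simp⟩
  | add a b ha hb =>
    obtain ⟨n1, h1⟩ := ha
    obtain ⟨n2, h2⟩ := hb
    refine ⟨n1 + n2, ?_⟩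
    rw [map_add, map_add]
    push_cast
    rw [h1, h2]
    ring
  | single s c =>
    refine ⟨c * zy s, ?_⟩
    have h1 : Finsupp.mapRange.addMonoidHom (Int.castRingHom ℚ).toAddMonoidHom (Finsupp.single s c)
        = (c : ℚ) • (Finsupp.single s 1 : α →₀ ℚ) := by
      simp
    rw [h1, map_smul]
    push_cast
    rw [hzy s]
    simp only [Finsupp.equivFunOnFinite_symm_apply_apply, smul_eq_mul]
    ring

/-- Mod `q` acyclic implies rationally acyclic. -/
theorem uct [Finite P] (h : ReducedAcyclic (ZMod q) P) : ReducedAcyclic ℚ P := by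
  rw [reducedAcyclic_iff]
  intro k x hx
  by_contra hcon
  have hnot : x ∉ LinearMap.range (boundary ℚ P k) := by
    rintro ⟨w, hw⟩
    exact hcon ⟨w, hw⟩
  obtain ⟨φ, hφx, hφ⟩ := Submodule.exists_le_ker_of_notMem hnot
  haveI : Finite (Fin k ↪o P) :=
    Finite.of_injective (fun σ : Fin k ↪o P => (σ : Fin k → P)) DFunLike.coe_injective
  obtain ⟨L, hL, hLφ⟩ := exists_integral_functional φ
  obtain ⟨D, hD, z, hz⟩ := exists_clear x
  have hcast : chainBase (Int.castRingHom ℚ) k z = (D : ℚ) • x := by
    ext s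
    rw [chainBase_apply]
    simpa using hz s
  have hzcyc : IsCyc ℤ P k z := by
    cases k with
    | zero => trivial
    | succ k =>
      change boundary ℤ P k z = 0
      apply chainBase_injective (Int.castRingHom ℚ) Int.cast_injective k
      rw [chainBase_boundary, hcast, map_smul]
      change boundary ℚ P k x = 0 at hx
      rw [hx, smul_zero, map_zero]
  -- the integer `n0`
  obtain ⟨n0, hn0⟩ := hLφ z
  have hcast' : (Finsupp.mapRange.addMonoidHom (Int.castRingHom ℚ).toAddMonoidHom z) = (D : ℚ) • x :=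
    hcast
  have hn0' : (n0 : ℚ) = L * (D * φ x) := by
    rw [hn0, hcast', map_smul, smul_eq_mul]
  have hn0ne : n0 ≠ 0 := by
    intro h0
    rw [h0] at hn0'
    have hLq : (L : ℚ) ≠ 0 := by exact_mod_cast hL
    have hDq : (D : ℚ) ≠ 0 := by exact_mod_cast hD
    have : (L : ℚ) * (D * φ x) ≠ 0 := mul_ne_zero hLq (mul_ne_zero hDq hφx)
    apply this
    rw [← hn0']
    simp
  have hdiv : ∀ N : ℕ, (q : ℤ) ^ N ∣ n0 := by
    intro N
    obtain ⟨w, z', hzw⟩ := exists_approx h k z hzcyc N
    obtain ⟨n', hn'⟩ := hLφ z'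
    refine ⟨n', ?_⟩
    have h1 : (n0 : ℚ) = ((q : ℤ) ^ N * n' : ℤ) := by
      push_cast
      rw [hn', hn0]
      have h2 : (Finsupp.mapRange.addMonoidHom (Int.castRingHom ℚ).toAddMonoidHom z) =
          boundary ℚ P k (chainBase (Int.castRingHom ℚ) (k + 1) w) +
            ((q : ℚ) ^ N) • (Finsupp.mapRange.addMonoidHom (Int.castRingHom ℚ).toAddMonoidHom z') := by
        change chainBase (Int.castRingHom ℚ) k z = _
        conv_lhs => rw [hzw]
        rw [map_add, chainBase_boundary]
        congr 1
        ext s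
        simp [chainBase_apply]
      rw [h2, map_add, map_smul, smul_eq_mul]
      have h3 : φ (boundary ℚ P k (chainBase (Int.castRingHom ℚ) (k + 1) w)) = 0 :=
        hφ ⟨_, rfl⟩
      rw [h3]
      ring
    exact_mod_cast h1
  -- contradiction: a nonzero integer has bounded `q`-divisibility
  have hN := hdiv n0.natAbs
  have hle : (q : ℤ) ^ n0.natAbs ≤ |n0| := Int.le_of_dvd (abs_pos.2 hn0ne) ((dvd_abs _ _).2 hN)
  have hlt : n0.natAbs < q ^ n0.natAbs := Nat.lt_pow_self hq.out.one_lt
  have hlt' : |n0| < (q : ℤ) ^ n0.natAbs := by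
    rw [Int.abs_eq_natAbs]
    exact_mod_cast hlt
  omega

end UCT

end Vale.Agent.Lib.P240
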