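import Vale.Agent.Lib.P240.Euler
import Vale.Agent.Lib.P240.SmithGroup
import Vale.Agent.Lib.P240.UCT

namespace Vale.Agent.Lib.P240

variable {P : Type*} [PartialOrder P] {G : Type*} [Group G]

/-- Fixed points of a subgroup on a `G`-poset. -/
abbrev FixSub (φ : G →* (P ≃o P)) (Q : Subgroup G) : Type _ := {x : P // ∀ c : Q, φ c x = x}

theorem fixSub_mem (φ : G →* (P ≃o P)) (Q : Subgroup G) (g : G)
    (hg : g ∈ Subgroup.normalizer (Q : Set G)) (x : FixSub φ Q) (c : Q) :
    φ c (φ g x.1) = φ g x.1 := by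
  have h1 : g⁻¹ * c * g ∈ Q := by
    have := (Subgroup.mem_normalizer_iff.1 hg) (g⁻¹ * c * g)
    rw [this]
    have h2 : g * (g⁻¹ * (c : G) * g) * g⁻¹ = c := by group
    rw [h2]
    exact c.2
  have h2 : φ (g⁻¹ * c * g) x.1 = x.1 := x.2 ⟨_, h1⟩
  have h3 : (c : G) * g = g * (g⁻¹ * c * g) := by group
  change (φ c * φ g) x.1 = φ g x.1
  rw [← map_mul, h3, map_mul, RelIso.mul_apply, h2]

/-- The restriction of an element of the normalizer of `Q` to the fixed points of `Q`. -/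
def fixSubIso (φ : G →* (P ≃o P)) (Q : Subgroup G) (g : G)
    (hg : g ∈ Subgroup.normalizer (Q : Set G)) : FixSub φ Q ≃o FixSub φ Q where
  toFun x := ⟨φ g x.1, fixSub_mem φ Q g hg x⟩
  invFun x := ⟨φ g⁻¹ x.1, fixSub_mem φ Q g⁻¹ (inv_mem hg) x⟩
  left_inv x := by
    apply Subtype.ext
    change (φ g⁻¹ * φ g) x.1 = x.1
    rw [← map_mul]
    simp
  right_inv x := by
    apply Subtype.ext
    change (φ g * φ g⁻¹) x.1 = x.1
    rw [← map_mul]
    simp
  map_rel_iff' := by
    intro a b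
    change φ g a.1 ≤ φ g b.1 ↔ a.1 ≤ b.1
    exact (φ g).le_iff_le

theorem fixSubIso_coe (φ : G →* (P ≃o P)) (Q : Subgroup G) (g : G)
    (hg : g ∈ Subgroup.normalizer (Q : Set G)) (x : FixSub φ Q) :
    ((fixSubIso φ Q g hg x : FixSub φ Q) : P) = φ g x.1 := rfl

/-- **Oliver-type criterion** for a finite `G`-poset: let `Q` be a `q`-subgroup, `h` normalize `Q`,
and let the `r`-subgroup `R` normalize `Q` and commute with `h` modulo `Q`.  If no point of `P` is
fixed by `Q`, `h` and `R`, then `P` is not mod `q` acyclic. -/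
theorem oliver_not_acyclic [Finite P] [Finite G] (φ : G →* (P ≃o P)) {q r : ℕ} [hq : Fact q.Prime]
    [hr : Fact r.Prime] (Q : Subgroup G) (hQ : IsPGroup q Q) (h : G)
    (hh : h ∈ Subgroup.normalizer (Q : Set G)) (R : Subgroup G) (hR : IsPGroup r R)
    (hRQ : R ≤ Subgroup.normalizer (Q : Set G))
    (hc : ∀ x ∈ R, (h * x)⁻¹ * (x * h) ∈ Q)
    (Hfix : ∀ p : P, (∀ c ∈ Q, φ c p = p) → φ h p = p → (∀ x ∈ R, φ x p = p) → False) :
    ¬ ReducedAcyclic (ZMod q) P := by
  intro hP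
  let φQ : Q →* (P ≃o P) := φ.comp Q.subtype
  have hY : ReducedAcyclic (ZMod q) (FixSub φ Q) :=
    smith_pgroup (K := ZMod q) (q := q) (ZMod.natCast_self q) hQ φQ hP
  have hYQ : ReducedAcyclic ℚ (FixSub φ Q) := uct (q := q) hY
  let φR : R →* (FixSub φ Q ≃o FixSub φ Q) :=
    { toFun := fun x => fixSubIso φ Q x (hRQ x.2)
      map_one' := by
        refine RelIso.ext fun y => Subtype.ext ?_
        rw [fixSubIso_coe]
        simp
      map_mul' := by
        intro a b
        refine RelIso.ext fun y => Subtype.ext ?_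
        rw [fixSubIso_coe]
        simp [RelIso.mul_apply, fixSubIso_coe] }
  have hφR : ∀ (x : R) (y : FixSub φ Q), ((φR x y : FixSub φ Q) : P) = φ x y.1 := fun _ _ => rfl
  refine not_acyclic_of_action r hR φR (fixSubIso φ Q h hh) ?_ ?_ hYQ
  · intro x y
    apply Subtype.ext
    rw [hφR, fixSubIso_coe, fixSubIso_coe, hφR]
    change (φ x * φ h) y.1 = (φ h * φ x) y.1
    rw [← map_mul, ← map_mul]
    have h1 : (x : G) * h = (h * x) * ((h * x)⁻¹ * (x * h)) := by group
    rw [h1, map_mul, RelIso.mul_apply]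
    congr 1
    exact y.2 ⟨_, hc x x.2⟩
  · intro y hy
    by_contra hcon
    push Not at hcon
    refine Hfix y.1 (fun c hc => y.2 ⟨c, hc⟩) ?_ (fun x hx => ?_)
    · have := congrArg Subtype.val hy
      rwa [fixSubIso_coe] at this
    · have := congrArg Subtype.val (hcon ⟨x, hx⟩)
      rwa [hφR] at this

end Vale.Agent.Lib.P240
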