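import Vale.Agent.Lib.P240.PermMain

open Equiv

namespace Vale.Agent.Lib.P240

variable {Ω : Type*} [Finite Ω] {ι : Type*}

/-- Data for one block: units and a permutation supported on the block. -/
structure BlockCover (q r : ℕ) (G : Subgroup (Perm Ω)) (B : Ω → ι) (i : ι)
    (Uq Ur : Set (Subgroup (Perm Ω) × Set Ω)) (h : Perm Ω) : Prop where
  pq : ∀ u ∈ Uq, IsPGroup q u.1
  pr : ∀ u ∈ Ur, IsPGroup r u.1
  sub : ∀ u ∈ Uq ∪ Ur, u.1 ≤ G
  unit : ∀ u ∈ Uq ∪ Ur, CoverUnit u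
  inb : ∀ u ∈ Uq ∪ Ur, ∀ x ∈ u.2, B x = i
  disj : ∀ u ∈ Uq ∪ Ur, ∀ v ∈ Uq ∪ Ur, u ≠ v → Disjoint u.2 v.2
  hG : h ∈ G
  hfix : ∀ x, B x ≠ i → h x = x
  hq : ∀ u ∈ Uq, ∀ c ∈ u.1, h * c * h⁻¹ ∈ ⨆ v ∈ Uq, v.1
  hr : ∀ u ∈ Ur, ∀ c ∈ u.1, h * c = c * h
  left : ∀ y, B y = i → (∀ u ∈ Uq ∪ Ur, y ∉ u.2) →
    (∃ x, x ≠ y ∧ B x = i) ∧ (∀ x, B x = i → x ≠ y → ∃ u ∈ Uq ∪ Ur, x ∈ u.2) ∧ h y = y ∧
      ∀ u ∈ Uq ∪ Ur, (∀ b, u.2.ncard + 1 ≠ 2 ^ b) ∨ ∃ z ∈ u.2, h z ∉ u.2 ∧ h z ≠ y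

omit [Finite Ω] in
/-- A permutation fixing the complement of a block preserves the block. -/
theorem block_preserved (B : Ω → ι) {i : ι} {h : Perm Ω} (hfix : ∀ x, B x ≠ i → h x = x) {x : Ω}
    (hx : B x = i) : B (h x) = i := by
  by_contra hcon
  have h1 := hfix _ hcon
  have h2 := h.injective h1
  rw [h2] at hcon
  exact hcon hx

/-- Gluing permutations supported on blocks. -/
theorem exists_glue (G : Subgroup (Perm Ω)) (B : Ω → ι) (hh : ι → Perm Ω)
    (hfix : ∀ i x, B x ≠ i → hh i x = x) (hG : ∀ i, hh i ∈ G) :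
    ∃ h ∈ G, ∀ x, h x = hh (B x) x := by
  classical
  have key : ∀ l : List ι, l.Nodup → ∃ h ∈ G, ∀ x, (B x ∈ l → h x = hh (B x) x) ∧ (B x ∉ l → h x = x) := by
    intro l
    induction l with
    | nil =>
      intro _
      exact ⟨1, one_mem _, fun x => ⟨fun hx => absurd hx (by simp), fun _ => rfl⟩⟩
    | cons a t ih =>
      intro hnd
      obtain ⟨hat, htnd⟩ := List.nodup_cons.1 hnd
      obtain ⟨h, hhG, hh'⟩ := ih htnd
      refine ⟨hh a * h, mul_mem (hG a) hhG, fun x => ⟨fun hx => ?_, fun hx => ?_⟩⟩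
      · rw [Perm.mul_apply]
        by_cases hxa : B x = a
        · have hxt : B x ∉ t := by rw [hxa]; exact hat
          rw [(hh' x).2 hxt, hxa]
        · have hxt : B x ∈ t := by
            rcases List.mem_cons.1 hx with h1 | h1
            · exact absurd h1 hxa
            · exact h1
          rw [(hh' x).1 hxt]
          apply hfix
          rw [block_preserved B (hfix (B x)) rfl]
          exact hxa
      · rw [Perm.mul_apply]
        have hxt : B x ∉ t := fun h1 => hx (List.mem_cons_of_mem _ h1)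
        have hxa : B x ≠ a := fun h1 => hx (h1 ▸ List.mem_cons_self)
        rw [(hh' x).2 hxt]
        exact hfix a x hxa
  have hfin : (Set.range B).Finite := Set.finite_range B
  obtain ⟨h, hhG, hh'⟩ := key hfin.toFinset.toList (Finset.nodup_toList _)
  refine ⟨h, hhG, fun x => (hh' x).1 ?_⟩
  rw [Finset.mem_toList, Set.Finite.mem_toFinset]
  exact ⟨x, rfl⟩

omit [Finite Ω] in
/-- Conjugating by `h` an element supported on block `i` is the same as by the local piece. -/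
theorem conj_eq_local (B : Ω → ι) (hh : ι → Perm Ω) (hfix : ∀ i x, B x ≠ i → hh i x = x)
    (h : Perm Ω) (hh' : ∀ x, h x = hh (B x) x) (i : ι) (c : Perm Ω)
    (hc : ∀ x, B x ≠ i → c x = x) : h * c * h⁻¹ = hh i * c * (hh i)⁻¹ := by
  have hblk : ∀ x, B (h x) = B x := by
    intro x
    rw [hh']
    exact block_preserved B (hfix (B x)) rfl
  have hinv : ∀ x, B x ≠ i → (hh i)⁻¹ x = x := by
    intro x hx
    rw [Perm.inv_eq_iff_eq]
    exact (hfix i x hx).symm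
  ext x
  simp only [Perm.mul_apply]
  obtain ⟨y, rfl⟩ := h.surjective x
  have hself : ∀ (g : Perm Ω) (z : Ω), g⁻¹ (g z) = z := fun g z => by simp
  rw [hself]
  by_cases hy : B y = i
  · have h1 : h y = hh i y := by rw [hh', hy]
    rw [h1, hself]
    have h2 : B (c y) = i := block_preserved B hc hy
    rw [hh', h2]
  · have hy' : B (h y) ≠ i := by rw [hblk]; exact hy
    rw [hinv _ hy', hc _ hy', hfix i _ hy', hc _ hy]

variable {q r : ℕ} [hq : Fact q.Prime] [hr : Fact r.Prime]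

/-- The criterion in terms of data on each block. -/
theorem perm_blocks (G : Subgroup (Perm Ω)) (B : Ω → ι)
    (hBG : ∀ g ∈ G, ∀ x y, B x = B y → B (g x) = B (g y)) (hne : q ≠ r)
    (Uq Ur : ι → Set (Subgroup (Perm Ω) × Set Ω)) (hh : ι → Perm Ω)
    (H : ∀ i, BlockCover q r G B i (Uq i) (Ur i) (hh i)) :
    ¬ ReducedAcyclic (ZMod q) (QuillenPoset G 2) := by
  classical
  obtain ⟨h, hhG, hh'⟩ := exists_glue G B hh (fun i => (H i).hfix) (fun i => (H i).hG)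
  have hUmem : ∀ u, u ∈ (⋃ i, Uq i) ∪ (⋃ i, Ur i) ↔ ∃ i, u ∈ Uq i ∪ Ur i := by
    intro u
    simp only [Set.mem_union, Set.mem_iUnion]
    constructor
    · rintro (⟨i, hi⟩ | ⟨i, hi⟩)
      · exact ⟨i, Or.inl hi⟩
      · exact ⟨i, Or.inr hi⟩
    · rintro ⟨i, hi | hi⟩
      · exact Or.inl ⟨i, hi⟩
      · exact Or.inr ⟨i, hi⟩
  have hcomm_local : ∀ i, ∀ u ∈ Uq i ∪ Ur i, ∀ c ∈ u.1, ∀ x, B x ≠ i → c x = x := by
    intro i u hu c hc x hx
    apply (H i).unit u hu |>.fix c hc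
    intro hxu
    exact hx ((H i).inb u hu x hxu)
  refine perm_global (q := q) (r := r) G B hBG (⋃ i, Uq i) (⋃ i, Ur i) ?_ ?_ ?_ ?_ ?_ ?_ ?_ h hhG ?_ ?_ ?_
  · intro u hu
    obtain ⟨i, hi⟩ := Set.mem_iUnion.1 hu
    exact (H i).pq u hi
  · intro u hu
    obtain ⟨i, hi⟩ := Set.mem_iUnion.1 hu
    exact (H i).pr u hi
  · intro u hu
    obtain ⟨i, hi⟩ := (hUmem u).1 hu
    exact (H i).sub u hi
  · intro u hu
    obtain ⟨i, hi⟩ := (hUmem u).1 hu
    exact (H i).unit u hi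
  · -- the two kinds of units are different
    intro u hu v hv huv
    subst huv
    obtain ⟨i, hi⟩ := Set.mem_iUnion.1 hu
    obtain ⟨j, hj⟩ := Set.mem_iUnion.1 hv
    have hunit := (H i).unit u (Or.inl hi)
    obtain ⟨x, hx⟩ := hunit.ne
    obtain ⟨c, hc, hcx⟩ := hunit.moved x hx
    obtain ⟨k, hk⟩ := (H i).pq u hi ⟨c, hc⟩
    obtain ⟨l, hl⟩ := (H j).pr u hj ⟨c, hc⟩
    have hk' : c ^ (q ^ k) = 1 := by simpa using congrArg Subtype.val hk
    have hl' : c ^ (r ^ l) = 1 := by simpa using congrArg Subtype.val hl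
    have h1 := orderOf_dvd_of_pow_eq_one hk'
    have h2 := orderOf_dvd_of_pow_eq_one hl'
    have hco : Nat.Coprime (q ^ k) (r ^ l) := Nat.coprime_pow_primes k l hq.out hr.out hne
    have h3 : orderOf c = 1 := Nat.eq_one_of_dvd_coprimes hco h1 h2
    rw [orderOf_eq_one_iff] at h3
    rw [h3] at hcx
    exact hcx rfl
  · intro u hu v hv huv
    obtain ⟨i, hi⟩ := (hUmem u).1 hu
    obtain ⟨j, hj⟩ := (hUmem v).1 hv
    by_cases hij : i = j
    · subst hij
      exact (H i).disj u hi v hj huv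
    · rw [Set.disjoint_left]
      intro x hx hx'
      exact hij (((H i).inb u hi x hx).symm.trans ((H j).inb v hj x hx'))
  · intro u hu x hx x' hx'
    obtain ⟨i, hi⟩ := (hUmem u).1 hu
    rw [(H i).inb u hi x hx, (H i).inb u hi x' hx']
  · intro u hu c hc
    obtain ⟨i, hi⟩ := Set.mem_iUnion.1 hu
    rw [conj_eq_local B hh (fun i => (H i).hfix) h hh' i c (hcomm_local i u (Or.inl hi) c hc)]
    have h1 := (H i).hq u hi c hc
    have h2 : (⨆ v ∈ Uq i, v.1) ≤ ⨆ v ∈ ⋃ i, Uq i, v.1 := by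
      refine iSup₂_le fun v hv => ?_
      exact le_iSup₂ (f := fun (v : Subgroup (Perm Ω) × Set Ω) (_ : v ∈ ⋃ i, Uq i) => v.1) v
        (Set.mem_iUnion.2 ⟨i, hv⟩)
    exact h2 h1
  · intro u hu c hc
    obtain ⟨i, hi⟩ := Set.mem_iUnion.1 hu
    have h1 := conj_eq_local B hh (fun i => (H i).hfix) h hh' i c (hcomm_local i u (Or.inr hi) c hc)
    have h2 := (H i).hr u hi c hc
    have h3 : hh i * c * (hh i)⁻¹ = c := by rw [h2]; group
    rw [h3] at h1
    calc h * c = (h * c * h⁻¹) * h := by group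
      _ = c * h := by rw [h1]
  · intro y hy
    set i := B y with hi
    have hy' : ∀ u ∈ Uq i ∪ Ur i, y ∉ u.2 := fun u hu => hy u ((hUmem u).2 ⟨i, hu⟩)
    obtain ⟨hL1, hL2, hL3, hL4⟩ := (H i).left y rfl hy'
    refine ⟨hL1, ?_, ?_, ?_⟩
    · intro x hx hxy
      obtain ⟨u, hu, hxu⟩ := hL2 x hx hxy
      exact ⟨u, (hUmem u).2 ⟨i, hu⟩, hxu⟩
    · rw [hh', ← hi]
      exact hL3
    · intro u hu hblk
      obtain ⟨j, hj⟩ := (hUmem u).1 hu
      have hji : j = i := by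
        obtain ⟨x, hx⟩ := ((H j).unit u hj).ne
        rw [← (H j).inb u hj x hx, hblk x hx]
      subst hji
      rcases hL4 u hj with h5 | ⟨z, hz, hz1, hz2⟩
      · exact Or.inl h5
      · refine Or.inr ⟨z, hz, ?_, ?_⟩
        · rw [hh', (H _).inb u hj z hz]
          exact hz1
        · rw [hh', (H _).inb u hj z hz]
          exact hz2

end Vale.Agent.Lib.P240
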