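import Mathlib

open Equiv MulAction

namespace Vale.Agent.Lib.P240

variable {Ω : Type*} [Finite Ω]

/-- If `c` normalizes `A` and fixes `x`, then `c` preserves the `A`-orbit of `x`. -/
theorem orbit_image (A : Subgroup (Perm Ω)) (c : Perm Ω) (hc : ∀ a ∈ A, c * a * c⁻¹ ∈ A) {x u : Ω}
    (hx : c x = x) (hu : ∃ a ∈ A, a x = u) : ∃ a ∈ A, a x = c u := by
  obtain ⟨a, ha, rfl⟩ := hu
  refine ⟨c * a * c⁻¹, hc a ha, ?_⟩
  have hx' : c⁻¹ x = x := by
    rw [Perm.inv_eq_iff_eq]
    exact hx.symm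
  simp [Perm.mul_apply, hx']

/-- The core dichotomy. `A` is an elementary abelian `p`-subgroup of `Sym(Ω)` normalized by a group
`C` which is supported and transitive on `Δ` (of order prime to `p`), moving every point of `Δ`.
Either `A` fixes `Δ` pointwise, or `Δ` together with one more point `y` is an `A`-orbit. -/
theorem core {p : ℕ} [hp : Fact p.Prime] (A : Subgroup (Perm Ω)) (hcomm : ∀ a ∈ A, ∀ b ∈ A, a * b = b * a)
    (hpow : ∀ a ∈ A, a ^ p = 1) (C : Subgroup (Perm Ω)) (hC : ∀ c ∈ C, ∀ a ∈ A, c * a * c⁻¹ ∈ A)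
    (Δ : Set Ω) (htr : ∀ x ∈ Δ, ∀ y ∈ Δ, ∃ c ∈ C, c x = y) (hfix : ∀ c ∈ C, ∀ x, x ∉ Δ → c x = x)
    (hmv : ∀ x ∈ Δ, ∃ c ∈ C, c x ≠ x) (hcop : ¬ p ∣ Δ.ncard) (hne : Δ.Nonempty) :
    (∀ a ∈ A, ∀ x ∈ Δ, a x = x) ∨
      ∃ y, y ∉ Δ ∧ (∃ b, Δ.ncard + 1 = p ^ b) ∧ ∀ x, (∃ a ∈ A, a y = x) ↔ (x = y ∨ x ∈ Δ) := by
  classical
  have hAp : IsPGroup p A := fun a => ⟨1, by
    apply Subtype.ext
    simpa using hpow a.1 a.2⟩
  have hcfix : ∀ c ∈ C, ∀ y, y ∉ Δ → c y = y := hfix
  by_cases hpres : ∀ a ∈ A, ∀ x ∈ Δ, a x ∈ Δ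
  · -- `Δ` is `A`-invariant
    left
    letI : MulAction A Δ :=
      { smul := fun a x => ⟨a.1 x.1, hpres a.1 a.2 x.1 x.2⟩
        one_smul := fun x => Subtype.ext rfl
        mul_smul := fun a b x => Subtype.ext rfl }
    have hcard : ¬ p ∣ Nat.card Δ := by
      rw [Nat.card_coe_set_eq]
      exact hcop
    obtain ⟨z, hz⟩ := hAp.nonempty_fixed_point_of_prime_not_dvd_card Δ hcard
    have hz' : ∀ a ∈ A, a z.1 = z.1 := by
      intro a ha
      have := hz ⟨a, ha⟩
      exact congrArg Subtype.val this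
    intro a ha x hx
    obtain ⟨c, hc, rfl⟩ := htr z.1 z.2 x hx
    have h1 : c⁻¹ * a * c ∈ A := by
      have := hC c⁻¹ (inv_mem hc) a ha
      simpa using this
    have h2 := hz' _ h1
    have h3 : (c⁻¹ * a * c) z.1 = c⁻¹ (a (c z.1)) := rfl
    rw [h3] at h2
    have h4 : a (c z.1) = c z.1 := by
      have := congrArg c h2
      simpa using this
    exact h4
  · -- `A` moves a point of `Δ` outside `Δ`
    right
    push Not at hpres
    obtain ⟨a0, ha0, z, hz, hy⟩ := hpres
    set y := a0 z with hy_def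
    refine ⟨y, hy, ?_⟩
    have hcy : ∀ c ∈ C, c y = y := fun c hc => hfix c hc y hy
    have hcy' : ∀ c ∈ C, c⁻¹ y = y := fun c hc => hfix _ (inv_mem hc) y hy
    -- the orbit of `y` contains `Δ`
    have hz_orb : ∃ a ∈ A, a y = z := ⟨a0⁻¹, inv_mem ha0, by simp [hy_def]⟩
    have hΔO : ∀ x ∈ Δ, ∃ a ∈ A, a y = x := by
      intro x hx
      obtain ⟨c, hc, rfl⟩ := htr z hz x hx
      exact orbit_image A c (hC c hc) (hcy c hc) hz_orb
    -- the subgroup `W`
    let W : Subgroup (Perm Ω) :=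
      { carrier := {e | e ∈ A ∧ ∀ c ∈ C, c (e y) = e y}
        one_mem' := ⟨one_mem _, fun c hc => hcy c hc⟩
        mul_mem' := by
          rintro e1 e2 ⟨he1, h1⟩ ⟨he2, h2⟩
          refine ⟨mul_mem he1 he2, fun c hc => ?_⟩
          have hf : c * e1 * c⁻¹ ∈ A := hC c hc e1 he1
          have hfy : (c * e1 * c⁻¹) y = e1 y := by
            simp only [Perm.mul_apply, hcy' c hc]
            exact h1 c hc
          have h3 : c ((e1 * e2) y) = (c * e1 * c⁻¹) (c (e2 y)) := by
            simp [Perm.mul_apply]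
          rw [h3, h2 c hc]
          have h4 : (c * e1 * c⁻¹) (e2 y) = ((c * e1 * c⁻¹) * e2) y := rfl
          rw [h4, hcomm _ hf _ he2, Perm.mul_apply, hfy]
          have h5 : e2 (e1 y) = (e2 * e1) y := rfl
          rw [h5, hcomm _ he2 _ he1]
        inv_mem' := by
          rintro e ⟨he, h1⟩
          refine ⟨inv_mem he, fun c hc => ?_⟩
          have hf : c * e * c⁻¹ ∈ A := hC c hc e he
          have hfy : (c * e * c⁻¹) y = e y := by
            simp only [Perm.mul_apply, hcy' c hc]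
            exact h1 c hc
          have h6 : (c * e * c⁻¹) * e⁻¹ = e⁻¹ * (c * e * c⁻¹) := hcomm _ hf _ (inv_mem he)
          have h7 : (e⁻¹ * (c * e * c⁻¹)) y = y := by
            rw [Perm.mul_apply, hfy]
            simp
          have h8 : ((c * e * c⁻¹) * e⁻¹) y = y := by rw [h6, h7]
          have h9 : e⁻¹ y = (c * e * c⁻¹)⁻¹ y := by
            rw [Perm.eq_inv_iff_eq]
            exact h8
          have h10 : (c * e * c⁻¹)⁻¹ y = c (e⁻¹ y) := by
            simp [mul_inv_rev, Perm.mul_apply, hcy' c hc]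
          rw [← h10, ← h9] }
    have hWp : IsPGroup p W := fun e => ⟨1, by
      apply Subtype.ext
      simpa using hpow e.1 e.2.1⟩
    -- the two orbits
    let O : Set Ω := orbit A y
    let S : Set Ω := orbit W y
    have hO : ∀ x, x ∈ O ↔ ∃ a ∈ A, a y = x := by
      intro x
      constructor
      · rintro ⟨a, rfl⟩
        exact ⟨a.1, a.2, rfl⟩
      · rintro ⟨a, ha, rfl⟩
        exact ⟨⟨a, ha⟩, rfl⟩
    have hS : ∀ x, x ∈ S ↔ x ∈ O ∧ x ∉ Δ := by
      intro x
      constructor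
      · rintro ⟨e, rfl⟩
        refine ⟨(hO _).2 ⟨e.1, e.2.1, rfl⟩, ?_⟩
        intro hmem
        obtain ⟨c, hc, hne'⟩ := hmv _ hmem
        exact hne' (e.2.2 c hc)
      · rintro ⟨hx, hxΔ⟩
        obtain ⟨a, ha, rfl⟩ := (hO x).1 hx
        exact ⟨⟨a, ha, fun c hc => hfix c hc _ hxΔ⟩, rfl⟩
    haveI : Finite (orbit A y) := Subtype.finite
    haveI : Finite (orbit W y) := Subtype.finite
    obtain ⟨b, hb⟩ := hAp.card_orbit y
    obtain ⟨a, ha⟩ := hWp.card_orbit y
    have hOcard : O.ncard = p ^ b := by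
      rw [← Nat.card_coe_set_eq]
      exact hb
    have hScard : S.ncard = p ^ a := by
      rw [← Nat.card_coe_set_eq]
      exact ha
    have hunion : O = Δ ∪ S := by
      ext x
      rw [Set.mem_union, hS]
      constructor
      · intro hx
        by_cases hxΔ : x ∈ Δ
        · exact Or.inl hxΔ
        · exact Or.inr ⟨hx, hxΔ⟩
      · rintro (hx | hx)
        · exact (hO x).2 (hΔO x hx)
        · exact hx.1
    have hdisj : Disjoint Δ S := by
      rw [Set.disjoint_left]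
      intro x hx hxS
      exact ((hS x).1 hxS).2 hx
    have hsum : p ^ b = Δ.ncard + p ^ a := by
      rw [← hOcard, ← hScard, hunion, Set.ncard_union_eq hdisj (Set.toFinite _) (Set.toFinite _)]
    have hΔpos : 0 < Δ.ncard := (Set.ncard_pos (Set.toFinite _)).2 hne
    have ha0 : a = 0 := by
      by_contra ha0
      have h1 : p ∣ p ^ a := dvd_pow_self p ha0
      have hb0 : b ≠ 0 := by
        rintro rfl
        have : 0 < p ^ a := pow_pos hp.out.pos a
        simp only [pow_zero] at hsum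
        have h2 : 2 ≤ p ^ a := le_trans hp.out.two_le (Nat.le_of_dvd this h1)
        omega
      have h2 : p ∣ p ^ b := dvd_pow_self p hb0
      rw [hsum] at h2
      exact hcop ((Nat.dvd_add_left h1).1 h2)
    subst ha0
    have hS1 : S.ncard = 1 := by rw [hScard]; simp
    obtain ⟨w, hw⟩ := Set.ncard_eq_one.1 hS1
    have hyS : y ∈ S := by
      rw [hS]
      exact ⟨(hO y).2 ⟨1, one_mem _, rfl⟩, hy⟩
    have hwy : S = {y} := by
      rw [hw] at hyS ⊢
      rw [Set.mem_singleton_iff] at hyS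
      rw [hyS]
    refine ⟨⟨b, ?_⟩, ?_⟩
    · rw [hsum]
      simp
    · intro x
      constructor
      · intro hx
        by_cases hxΔ : x ∈ Δ
        · exact Or.inr hxΔ
        · left
          have : x ∈ S := (hS x).2 ⟨(hO x).2 hx, hxΔ⟩
          rw [hwy] at this
          exact this
      · rintro (rfl | hx)
        · exact ⟨1, one_mem _, rfl⟩
        · exact hΔO x hx

end Vale.Agent.Lib.P240
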