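import Vale.Agent.Lib.P240.PermCore
import Vale.Agent.Lib.P240.Oliver
import Vale.Agent.Lib.P240.Criterion

open Equiv

namespace Vale.Agent.Lib.P240

/-- **Oliver-type criterion for the Quillen poset.** -/
theorem quillen_oliver {G : Type*} [Group G] [Finite G] (p : ℕ) {q r : ℕ} [hq : Fact q.Prime]
    [hr : Fact r.Prime] (Q : Subgroup G) (hQ : IsPGroup q Q) (h : G)
    (hh : h ∈ Subgroup.normalizer (Q : Set G)) (R : Subgroup G) (hR : IsPGroup r R)
    (hRQ : R ≤ Subgroup.normalizer (Q : Set G))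
    (hc : ∀ x ∈ R, (h * x)⁻¹ * (x * h) ∈ Q)
    (H : ∀ E : QuillenPoset G p, (∀ c ∈ Q, c ∈ Subgroup.normalizer (E.1 : Set G)) →
      h ∈ Subgroup.normalizer (E.1 : Set G) →
      (∀ x ∈ R, x ∈ Subgroup.normalizer (E.1 : Set G)) → False) :
    ¬ ReducedAcyclic (ZMod q) (QuillenPoset G p) := by
  refine oliver_not_acyclic (conjHom p) Q hQ h hh R hR hRQ hc ?_
  intro E h1 h2 h3
  refine H E (fun c hc => (conjFun_eq_iff p c E).1 (h1 c hc)) ((conjFun_eq_iff p h E).1 h2)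
    (fun x hx => (conjFun_eq_iff p x E).1 (h3 x hx))

variable {Ω : Type*} [Finite Ω] {ι : Type*}

/-- A cover unit `(C, Δ)`: `C` is supported and transitive on `Δ`, moves every point of `Δ`, and
`Δ` is nonempty of odd order. -/
structure CoverUnit (u : Subgroup (Perm Ω) × Set Ω) : Prop where
  fix : ∀ c ∈ u.1, ∀ x, x ∉ u.2 → c x = x
  trans : ∀ x ∈ u.2, ∀ y ∈ u.2, ∃ c ∈ u.1, c x = y
  moved : ∀ x ∈ u.2, ∃ c ∈ u.1, c x ≠ x
  odd : ¬ 2 ∣ u.2.ncard
  ne : u.2.Nonempty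

omit [Finite Ω] in
theorem CoverUnit.mem_of_mem {u : Subgroup (Perm Ω) × Set Ω} (hu : CoverUnit u) {c : Perm Ω}
    (hc : c ∈ u.1) {x : Ω} (hx : x ∈ u.2) : c x ∈ u.2 := by
  by_contra hcon
  have h1 := hu.fix c hc _ hcon
  have h2 := c.injective h1
  rw [h2] at hcon
  exact hcon hx

/-- The final argument: an elementary abelian `2`-group normalized by all the units (and `h`) is
trivial. -/
theorem trivial_of_units (A : Subgroup (Perm Ω)) (hcomm : ∀ a ∈ A, ∀ b ∈ A, a * b = b * a)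
    (hpow : ∀ a ∈ A, a ^ 2 = 1) (B : Ω → ι) (hB : ∀ a ∈ A, ∀ x y, B x = B y → B (a x) = B (a y))
    (U : Set (Subgroup (Perm Ω) × Set Ω)) (hU : ∀ u ∈ U, CoverUnit u)
    (hnorm : ∀ u ∈ U, ∀ c ∈ u.1, ∀ a ∈ A, c * a * c⁻¹ ∈ A)
    (hdisj : ∀ u ∈ U, ∀ v ∈ U, u ≠ v → Disjoint u.2 v.2)
    (hbl : ∀ u ∈ U, ∀ x ∈ u.2, ∀ x' ∈ u.2, B x = B x')
    (h : Perm Ω) (hh : ∀ a ∈ A, h * a * h⁻¹ ∈ A)
    (hleft : ∀ y, (∀ u ∈ U, y ∉ u.2) →
      (∃ x, x ≠ y ∧ B x = B y) ∧ (∀ x, B x = B y → x ≠ y → ∃ u ∈ U, x ∈ u.2) ∧ h y = y ∧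
        ∀ u ∈ U, (∀ x ∈ u.2, B x = B y) →
          (∀ b, u.2.ncard + 1 ≠ 2 ^ b) ∨ ∃ z ∈ u.2, h z ∉ u.2 ∧ h z ≠ y) :
    ∀ a ∈ A, a = 1 := by
  haveI : Fact (Nat.Prime 2) := ⟨Nat.prime_two⟩
  have step1 : ∀ u ∈ U, ∀ a ∈ A, ∀ x ∈ u.2, a x = x := by
    intro u hu
    have hu' := hU u hu
    rcases core (p := 2) A hcomm hpow u.1 (hnorm u hu) u.2 hu'.trans hu'.fix hu'.moved hu'.odd hu'.ne
      with h1 | ⟨y, hy, ⟨b, hb⟩, horb⟩
    · exact h1
    · exfalso
      obtain ⟨z1, hz1⟩ := hu'.ne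
      -- `y` is uncovered
      have hunc : ∀ v ∈ U, y ∉ v.2 := by
        intro v hv hyv
        have hvu : u ≠ v := by
          rintro rfl
          exact hy hyv
        have hdj := hdisj u hu v hv hvu
        have hv' := hU v hv
        obtain ⟨c, hc, hcy⟩ := hv'.moved y hyv
        have hcz : c z1 = z1 := hv'.fix c hc z1 (Set.disjoint_left.1 hdj hz1)
        obtain ⟨a, ha, haz⟩ := (horb z1).2 (Or.inr hz1)
        have h1 : ∃ a' ∈ A, a' z1 = y := ⟨a⁻¹, inv_mem ha, by rw [← haz]; simp⟩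
        obtain ⟨a2, ha2, ha2z⟩ := orbit_image A c (hnorm v hv c hc) hcz h1
        have h2 : ∃ a' ∈ A, a' y = c y := ⟨a2 * a, mul_mem ha2 ha, by
          rw [Perm.mul_apply, haz, ha2z]⟩
        rcases (horb _).1 h2 with h3 | h3
        · exact hcy h3
        · exact Set.disjoint_left.1 hdj h3 (hv'.mem_of_mem hc hyv)
      obtain ⟨hL1, hL2, hL3, hL4⟩ := hleft y hunc
      -- `Δ` lies in the block of `y`
      have hblk : ∀ x ∈ u.2, B x = B y := by
        obtain ⟨a, ha, haz⟩ := (horb z1).2 (Or.inr hz1)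
        have hay : a⁻¹ z1 = y := by rw [← haz]; simp
        obtain ⟨c, hc, hcz⟩ := hu'.moved z1 hz1
        have hz2 := hu'.mem_of_mem hc hz1
        obtain ⟨a', ha', ha'z⟩ := (horb (c z1)).2 (Or.inr hz2)
        have h1 : B (a⁻¹ z1) = B (a⁻¹ (c z1)) :=
          hB a⁻¹ (inv_mem ha) _ _ (hbl u hu _ hz1 _ hz2)
        rw [hay] at h1
        have h2 : ∃ a'' ∈ A, a'' y = a⁻¹ (c z1) := ⟨a⁻¹ * a', mul_mem (inv_mem ha) ha', by
          rw [Perm.mul_apply, ha'z]⟩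
        have h3 : a⁻¹ (c z1) ≠ y := by
          intro h4
          rw [← hay] at h4
          exact hcz (a⁻¹.injective h4)
        have h4 : a⁻¹ (c z1) ∈ u.2 := ((horb _).1 h2).resolve_left h3
        intro x hx
        rw [hbl u hu x hx _ h4, ← h1]
      rcases hL4 u hu hblk with h5 | ⟨z, hz, hz1', hz2'⟩
      · exact h5 b hb
      · obtain ⟨a, ha, haz⟩ := (horb z).2 (Or.inr hz)
        obtain ⟨a2, ha2, ha2z⟩ := orbit_image A h hh hL3 ⟨a, ha, haz⟩
        rcases (horb _).1 ⟨a2, ha2, ha2z⟩ with h3 | h3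
        · exact hz2' h3
        · exact hz1' h3
  have step2 : ∀ a ∈ A, ∀ x, a x = x := by
    intro a ha x
    by_cases hx : ∃ u ∈ U, x ∈ u.2
    · obtain ⟨u, hu, hxu⟩ := hx
      exact step1 u hu a ha x hxu
    · push Not at hx
      obtain ⟨⟨x', hx'1, hx'2⟩, hL2, -, -⟩ := hleft x hx
      obtain ⟨u, hu, hu'⟩ := hL2 x' hx'2 hx'1
      have h1 : a x' = x' := step1 u hu a ha x' hu'
      have h2 : B (a x') = B (a x) := hB a ha _ _ hx'2
      rw [h1, hx'2] at h2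
      by_contra hne
      obtain ⟨v, hv, hv'⟩ := hL2 (a x) h2.symm hne
      have h3 := step1 v hv a ha _ hv'
      exact hne (a.injective h3)
  intro a ha
  ext x
  simp [step2 a ha x]

/-- Commuting families of `p`-subgroups generate a `p`-subgroup. -/
theorem isPGroup_biSup {G J : Type*} [Group G] {p : ℕ} (s : Set J) (hs : s.Finite) (C : J → Subgroup G)
    (hp : ∀ j ∈ s, IsPGroup p (C j))
    (hcomm : ∀ i ∈ s, ∀ j ∈ s, i ≠ j → ∀ x ∈ C i, ∀ y ∈ C j, x * y = y * x) :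
    IsPGroup p ↥(⨆ j ∈ s, C j) := by
  induction s, hs using Set.Finite.induction_on with
  | empty =>
    have h0 : (⨆ j ∈ (∅ : Set J), C j) = ⊥ := by simp
    rw [h0]
    exact IsPGroup.of_bot
  | @insert a s ha hs ih =>
    rw [iSup_insert]
    rw [sup_comm]
    refine IsPGroup.to_sup_of_normal_right' (ih (fun j hj => hp j (Set.mem_insert_of_mem _ hj))
      (fun i hi j hj hij => hcomm i (Set.mem_insert_of_mem _ hi) j (Set.mem_insert_of_mem _ hj) hij))
      (hp a (Set.mem_insert _ _)) ?_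
    refine iSup₂_le fun j hj x hx => ?_
    rw [Subgroup.mem_normalizer_iff]
    intro y
    have hne : j ≠ a := by
      rintro rfl
      exact ha hj
    have h1 : ∀ z ∈ C a, x * z = z * x := fun z hz =>
      hcomm j (Set.mem_insert_of_mem _ hj) a (Set.mem_insert _ _) hne x hx z hz
    constructor
    · intro hy
      have h2 : x * y * x⁻¹ = y := by rw [h1 y hy]; group
      rw [h2]
      exact hy
    · intro hy
      have h2 : x * (x * y * x⁻¹) = (x * y * x⁻¹) * x := h1 _ hy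
      have h3 : y = x * y * x⁻¹ := by
        have h4 : x * y * x⁻¹ * x = x * y := by group
        rw [h4] at h2
        exact (mul_left_cancel h2).symm
      rw [h3]
      exact hy

/-- Elements of two commuting families of subgroups commute. -/
theorem commute_biSup {G J K : Type*} [Group G] (s : Set J) (t : Set K) (C : J → Subgroup G)
    (D : K → Subgroup G) (h : ∀ i ∈ s, ∀ j ∈ t, ∀ x ∈ C i, ∀ y ∈ D j, x * y = y * x) :
    ∀ x ∈ (⨆ i ∈ s, C i), ∀ y ∈ (⨆ j ∈ t, D j), x * y = y * x := by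
  have h1 : ∀ j ∈ t, ∀ y ∈ D j, (⨆ i ∈ s, C i) ≤ Subgroup.centralizer {y} := by
    intro j hj y hy
    refine iSup₂_le fun i hi x hx => ?_
    rw [Subgroup.mem_centralizer_singleton_iff]
    exact h i hi j hj x hx y hy
  intro x hx
  have h2 : (⨆ j ∈ t, D j) ≤ Subgroup.centralizer {x} := by
    refine iSup₂_le fun j hj y hy => ?_
    rw [Subgroup.mem_centralizer_singleton_iff]
    exact (Subgroup.mem_centralizer_singleton_iff.1 (h1 j hj y hy hx)).symm
  intro y hy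
  exact (Subgroup.mem_centralizer_singleton_iff.1 (h2 hy)).symm

/-- In a finite group: if conjugation by `h` maps `Q` into itself, `h` normalizes `Q`. -/
theorem mem_normalizer_of_conj_le {G : Type*} [Group G] [Finite G] (Q : Subgroup G) (h : G)
    (hh : ∀ x ∈ Q, h * x * h⁻¹ ∈ Q) : h ∈ Subgroup.normalizer (Q : Set G) := by
  have hpow : ∀ k : ℕ, ∀ x ∈ Q, h ^ k * x * (h ^ k)⁻¹ ∈ Q := by
    intro k
    induction k with
    | zero => simp
    | succ k ih =>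
      intro x hx
      have := hh _ (ih x hx)
      have h2 : h ^ (k + 1) * x * (h ^ (k + 1))⁻¹ = h * (h ^ k * x * (h ^ k)⁻¹) * h⁻¹ := by
        rw [pow_succ']
        group
      rwa [h2]
  rw [Subgroup.mem_normalizer_iff]
  intro x
  constructor
  · exact hh x
  · intro hx
    have hord := isOfFinOrder_of_finite h
    obtain ⟨n, hn, hn1⟩ := isOfFinOrder_iff_pow_eq_one.1 hord
    have h3 := hpow (n - 1) _ hx
    have h4 : h ^ (n - 1) * h = 1 := by
      rw [← pow_succ, Nat.sub_add_cancel hn, hn1]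
    have h5 : h ^ (n - 1) = h⁻¹ := eq_inv_of_mul_eq_one_left h4
    rw [h5] at h3
    have h6 : h⁻¹ * (h * x * h⁻¹) * h⁻¹⁻¹ = x := by group
    rwa [h6] at h3

section Global

variable {q r : ℕ} [hq : Fact q.Prime] [hr : Fact r.Prime]

/-- The global criterion in terms of cover units. -/
theorem perm_global (G : Subgroup (Perm Ω)) (B : Ω → ι)
    (hBG : ∀ g ∈ G, ∀ x y, B x = B y → B (g x) = B (g y))
    (Uq Ur : Set (Subgroup (Perm Ω) × Set Ω))
    (hUq : ∀ u ∈ Uq, IsPGroup q u.1) (hUr : ∀ u ∈ Ur, IsPGroup r u.1)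
    (hsub : ∀ u ∈ Uq ∪ Ur, u.1 ≤ G) (hU : ∀ u ∈ Uq ∪ Ur, CoverUnit u)
    (hqr : ∀ u ∈ Uq, ∀ v ∈ Ur, u ≠ v)
    (hdisj : ∀ u ∈ Uq ∪ Ur, ∀ v ∈ Uq ∪ Ur, u ≠ v → Disjoint u.2 v.2)
    (hbl : ∀ u ∈ Uq ∪ Ur, ∀ x ∈ u.2, ∀ x' ∈ u.2, B x = B x')
    (h : Perm Ω) (hhG : h ∈ G)
    (hhq : ∀ u ∈ Uq, ∀ c ∈ u.1, h * c * h⁻¹ ∈ ⨆ v ∈ Uq, v.1)
    (hhr : ∀ u ∈ Ur, ∀ c ∈ u.1, h * c = c * h)
    (hleft : ∀ y, (∀ u ∈ Uq ∪ Ur, y ∉ u.2) →
      (∃ x, x ≠ y ∧ B x = B y) ∧ (∀ x, B x = B y → x ≠ y → ∃ u ∈ Uq ∪ Ur, x ∈ u.2) ∧ h y = y ∧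
        ∀ u ∈ Uq ∪ Ur, (∀ x ∈ u.2, B x = B y) →
          (∀ b, u.2.ncard + 1 ≠ 2 ^ b) ∨ ∃ z ∈ u.2, h z ∉ u.2 ∧ h z ≠ y) :
    ¬ ReducedAcyclic (ZMod q) (QuillenPoset G 2) := by
  classical
  have hcommU : ∀ u ∈ Uq ∪ Ur, ∀ v ∈ Uq ∪ Ur, u ≠ v → ∀ c ∈ u.1, ∀ d ∈ v.1, c * d = d * c := by
    intro u hu v hv huv c hc d hd
    have hdj := hdisj u hu v hv huv
    have : Perm.Disjoint c d := by
      intro x
      by_cases hx : x ∈ u.2
      · right
        exact (hU v hv).fix d hd x (Set.disjoint_left.1 hdj hx)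
      · left
        exact (hU u hu).fix c hc x hx
    exact this.commute
  let Q' : Subgroup (Perm Ω) := ⨆ v ∈ Uq, v.1
  let R' : Subgroup (Perm Ω) := ⨆ v ∈ Ur, v.1
  have hQ'p : IsPGroup q Q' :=
    isPGroup_biSup Uq (Set.toFinite _) (fun v => v.1) hUq (fun i hi j hj hij x hx y hy =>
      hcommU i (Or.inl hi) j (Or.inl hj) hij x hx y hy)
  have hR'p : IsPGroup r R' :=
    isPGroup_biSup Ur (Set.toFinite _) (fun v => v.1) hUr (fun i hi j hj hij x hx y hy =>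
      hcommU i (Or.inr hi) j (Or.inr hj) hij x hx y hy)
  have hQ'G : Q' ≤ G := iSup₂_le fun v hv => hsub v (Or.inl hv)
  have hR'G : R' ≤ G := iSup₂_le fun v hv => hsub v (Or.inr hv)
  have hQR : ∀ x ∈ Q', ∀ y ∈ R', x * y = y * x :=
    commute_biSup Uq Ur (fun v => v.1) (fun v => v.1) (fun i hi j hj x hx y hy =>
      hcommU i (Or.inl hi) j (Or.inr hj) (hqr i hi j hj) x hx y hy)
  let Q : Subgroup G := Q'.subgroupOf G
  let R : Subgroup G := R'.subgroupOf G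
  have hQp : IsPGroup q Q := by
    intro x
    obtain ⟨k, hk⟩ := hQ'p ⟨x.1.1, x.2⟩
    refine ⟨k, ?_⟩
    apply Subtype.ext
    apply Subtype.ext
    have := congrArg Subtype.val hk
    simpa using this
  have hRp : IsPGroup r R := by
    intro x
    obtain ⟨k, hk⟩ := hR'p ⟨x.1.1, x.2⟩
    refine ⟨k, ?_⟩
    apply Subtype.ext
    apply Subtype.ext
    have := congrArg Subtype.val hk
    simpa using this
  have hhnorm : (⟨h, hhG⟩ : G) ∈ Subgroup.normalizer (Q : Set G) := by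
    apply mem_normalizer_of_conj_le
    intro x hx
    have hx' : x.1 ∈ Q' := hx
    have h1 : Q' ≤ Q'.comap (MulAut.conj h).toMonoidHom := by
      refine iSup₂_le fun v hv c hc => ?_
      rw [Subgroup.mem_comap]
      exact hhq v hv c hc
    exact h1 hx'
  have hRnorm : R ≤ Subgroup.normalizer (Q : Set G) := by
    intro x hx
    apply mem_normalizer_of_conj_le
    intro y hy
    have hxy : y.1 * x.1 = x.1 * y.1 := hQR y.1 hy x.1 hx
    have h2 : x * y * x⁻¹ = y := by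
      apply Subtype.ext
      change x.1 * y.1 * x.1⁻¹ = y.1
      rw [← hxy]
      group
    rw [h2]
    exact hy
  have hRh : ∀ x ∈ R', x * h = h * x := by
    intro x hx
    have h1 : R' ≤ Subgroup.centralizer {h} := by
      refine iSup₂_le fun v hv c hc => ?_
      rw [Subgroup.mem_centralizer_singleton_iff]
      exact (hhr v hv c hc).symm
    exact Subgroup.mem_centralizer_singleton_iff.1 (h1 hx)
  haveI : Finite G := inferInstance
  refine quillen_oliver 2 Q hQp ⟨h, hhG⟩ hhnorm R hRp hRnorm ?_ ?_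
  · intro x hx
    have h1 : x * (⟨h, hhG⟩ : G) = (⟨h, hhG⟩ : G) * x := by
      apply Subtype.ext
      exact hRh x.1 hx
    rw [h1, inv_mul_cancel]
    exact one_mem _
  · intro E hEQ hEh hER
    -- the permutation group
    let A : Subgroup (Perm Ω) := E.1.map G.subtype
    have hnormA : ∀ c : G, c ∈ Subgroup.normalizer (E.1 : Set G) →
        ∀ a ∈ A, c.1 * a * c.1⁻¹ ∈ A := by
      rintro c hc _ ⟨e, he, rfl⟩
      refine ⟨c * e * c⁻¹, (Subgroup.mem_normalizer_iff.1 hc e).1 he, ?_⟩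
      rfl
    have hA : ∀ a ∈ A, a = 1 := by
      refine trivial_of_units A ?_ ?_ B ?_ (Uq ∪ Ur) hU ?_ hdisj hbl h ?_ hleft
      · rintro _ ⟨a, ha, rfl⟩ _ ⟨b, hb, rfl⟩
        have := E.2.2.1 a ha b hb
        exact congrArg Subtype.val this
      · rintro _ ⟨a, ha, rfl⟩
        have := E.2.2.2 a ha
        exact congrArg Subtype.val this
      · rintro _ ⟨a, ha, rfl⟩ x y hxy
        exact hBG a.1 a.2 x y hxy
      · intro u hu c hc a ha
        have hcG : c ∈ G := hsub u hu hc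
        refine hnormA ⟨c, hcG⟩ ?_ a ha
        rcases hu with hu | hu
        · apply hEQ
          exact (le_iSup₂ (f := fun (v : Subgroup (Perm Ω) × Set Ω) (_ : v ∈ Uq) => v.1) u hu) hc
        · apply hER
          exact (le_iSup₂ (f := fun (v : Subgroup (Perm Ω) × Set Ω) (_ : v ∈ Ur) => v.1) u hu) hc
      · intro a ha
        exact hnormA ⟨h, hhG⟩ hEh a ha
    apply E.2.1
    rw [eq_bot_iff]
    intro e he
    have := hA e.1 ⟨e, he, rfl⟩
    rw [Subgroup.mem_bot]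
    exact Subtype.ext this

end Global

end Vale.Agent.Lib.P240
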