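import Mathlib

namespace Vale.Agent.Lib.P240

/-- Abstract data for the Smith argument on a chain complex with an operator of prime order:
`τ = 1 - g`, `σ = 1 + g + ... + g^(q-1)`, `F` the fixed subcomplex, `π` the projection onto it. -/
structure SmithData (K : Type*) [CommRing K] (C : ℕ → Type*) [∀ k, AddCommGroup (C k)]
    [∀ k, Module K (C k)] where
  d : ∀ k, C (k + 1) →ₗ[K] C k
  Z : ∀ k, C k → Prop
  τ : ∀ k, C k →ₗ[K] C k
  σ : ∀ k, C k →ₗ[K] C k
  π : ∀ k, C k →ₗ[K] C k
  F : ∀ k, Submodule K (C k)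
  Z_succ : ∀ k z, Z (k + 1) z ↔ d k z = 0
  dd : ∀ k x, d k (d (k + 1) x) = 0
  exact : ∀ k z, Z k z → ∃ w, z = d k w
  τd : ∀ k x, τ k (d k x) = d k (τ (k + 1) x)
  σd : ∀ k x, σ k (d k x) = d k (σ (k + 1) x)
  Fd : ∀ k x, x ∈ F (k + 1) → d k x ∈ F k
  πF : ∀ k x, x ∈ F k → π k x = x
  πτ : ∀ k x, π k (τ k x) = 0
  πσ : ∀ k x, π k (σ k x) = 0
  στ : ∀ k x, σ k (τ k x) = 0
  τσ : ∀ k x, τ k (σ k x) = 0
  σF : ∀ k x, x ∈ F k → σ k x = 0
  K1 : ∀ k x, τ k x = 0 → ∃ u, ∃ f ∈ F k, x = σ k u + f
  K2 : ∀ k x, σ k x = 0 → ∃ u, ∃ f ∈ F k, x = τ k u + f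

namespace SmithData

variable {K : Type*} [CommRing K] {C : ℕ → Type*} [∀ k, AddCommGroup (C k)]
  [∀ k, Module K (C k)] (S : SmithData K C)

/-- Main step, with `ρ, ρ'` standing for `τ, σ` or `σ, τ`. -/
theorem step_aux (ρ ρ' : ∀ k, C k →ₗ[K] C k)
    (hρd : ∀ k x, ρ k (S.d k x) = S.d k (ρ (k + 1) x))
    (hρ'd : ∀ k x, ρ' k (S.d k x) = S.d k (ρ' (k + 1) x))
    (hK : ∀ k x, ρ' k x = 0 → ∃ u, ∃ f ∈ S.F k, x = ρ k u + f)
    (k : ℕ) (z : C k) (hz : S.Z k z) (hz0 : ρ' k z = 0)
    (IH : ∀ y, S.Z (k + 1) (ρ' (k + 1) y) → ∃ v, ρ' (k + 1) y = S.d (k + 1) (ρ' (k + 2) v)) :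
    ∃ u, ∃ f ∈ S.F (k + 1), z = ρ k (S.d k u) + S.d k f := by
  obtain ⟨w, hw⟩ := S.exact k z hz
  have h1 : S.d k (ρ' (k + 1) w) = 0 := by
    rw [← hρ'd, ← hw, hz0]
  obtain ⟨v, hv⟩ := IH w ((S.Z_succ k _).2 h1)
  have h2 : ρ' (k + 1) (w - S.d (k + 1) v) = 0 := by
    rw [map_sub, hρ'd, hv, sub_self]
  obtain ⟨u, f, hf, huf⟩ := hK (k + 1) _ h2
  refine ⟨u, f, hf, ?_⟩
  have h3 : w = ρ (k + 1) u + f + S.d (k + 1) v := by
    rw [← huf]; abel
  rw [hw, h3, map_add, map_add, S.dd, add_zero, hρd]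

/-- Downward induction: `τ`- and `σ`-cycles bound in `τC` and `σC`. -/
theorem BC (N : ℕ) (htop : ∀ k, N ≤ k → Subsingleton (C k)) : ∀ n k, N ≤ k + n →
    (∀ y, S.Z k (S.τ k y) → ∃ v, S.τ k y = S.d k (S.τ (k + 1) v)) ∧
    (∀ y, S.Z k (S.σ k y) → ∃ v, S.σ k y = S.d k (S.σ (k + 1) v)) := by
  intro n
  induction n with
  | zero =>
    intro k hk
    have := htop k hk
    exact ⟨fun y _ => ⟨0, Subsingleton.elim _ _⟩, fun y _ => ⟨0, Subsingleton.elim _ _⟩⟩
  | succ n ih =>
    intro k hk
    obtain ⟨hB, hC⟩ := ih (k + 1) (by omega)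
    constructor
    · intro y hy
      obtain ⟨u, f, hf, h⟩ := S.step_aux S.τ S.σ S.τd S.σd S.K2 k (S.τ k y) hy (S.στ k y) hC
      have h0 : S.d k f = 0 := by
        have := congrArg (S.π k) h
        rw [S.πτ, map_add, S.πτ, zero_add, S.πF _ _ (S.Fd _ _ hf)] at this
        exact this.symm
      refine ⟨u, ?_⟩
      rw [h0, add_zero, S.τd] at h
      rw [h]
    · intro y hy
      obtain ⟨u, f, hf, h⟩ := S.step_aux S.σ S.τ S.σd S.τd S.K1 k (S.σ k y) hy (S.τσ k y) hB
      have h0 : S.d k f = 0 := by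
        have := congrArg (S.π k) h
        rw [S.πσ, map_add, S.πσ, zero_add, S.πF _ _ (S.Fd _ _ hf)] at this
        exact this.symm
      refine ⟨u, ?_⟩
      rw [h0, add_zero, S.σd] at h
      rw [h]

/-- Smith: the fixed subcomplex is exact. -/
theorem fixed_exact (N : ℕ) (htop : ∀ k, N ≤ k → Subsingleton (C k)) (k : ℕ) (z : C k)
    (hF : z ∈ S.F k) (hz : S.Z k z) : ∃ f ∈ S.F (k + 1), z = S.d k f := by
  obtain ⟨-, hC⟩ := S.BC N htop N (k + 1) (by omega)
  obtain ⟨u, f, hf, h⟩ := S.step_aux S.τ S.σ S.τd S.σd S.K2 k z hz (S.σF k z hF) hC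
  refine ⟨f, hf, ?_⟩
  have := congrArg (S.π k) h
  rw [S.πF _ _ hF, map_add, S.πτ, zero_add, S.πF _ _ (S.Fd _ _ hf)] at this
  exact this

end SmithData

section PermLin

open Finsupp

variable {K : Type*} [Field K] {α : Type*} (g : Equiv.Perm α)

/-- The linear operator on the free module induced by a permutation. -/
noncomputable def permLin (K : Type*) [Field K] {α : Type*} (g : Equiv.Perm α) :
    Module.End K (α →₀ K) :=
  Finsupp.lmapDomain K K (g : α → α)

theorem permLin_single (s : α) (c : K) :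
    permLin K g (Finsupp.single s c : α →₀ K) = Finsupp.single (g s) c := by
  simp [permLin]

theorem permLin_apply (x : α →₀ K) (s : α) : permLin K g x s = x (g⁻¹ s) := by
  have : permLin K g x = Finsupp.mapDomain (g : α ≃ α) x := rfl
  rw [this]
  exact Finsupp.mapDomain_equiv_apply (f := g) (x := x) (a := s)

theorem permLin_pow_single (i : ℕ) (s : α) (c : K) :
    (permLin K g ^ i) (Finsupp.single s c : α →₀ K) = Finsupp.single ((g ^ i) s) c := by
  induction i with
  | zero => simp
  | succ i ih =>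
    rw [pow_succ', Module.End.mul_apply, ih, permLin_single, pow_succ']
    rfl

theorem permLin_pow_eq_one {q : ℕ} (hg : g ^ q = 1) : permLin K g ^ q = 1 := by
  apply Finsupp.lhom_ext
  intro s c
  rw [permLin_pow_single, hg]
  simp

/-- `τ = 1 - g`. -/
noncomputable def tauLin (K : Type*) [Field K] {α : Type*} (g : Equiv.Perm α) :
    Module.End K (α →₀ K) := 1 - permLin K g

/-- `σ = 1 + g + ... + g^(q-1)`. -/
noncomputable def sigLin (K : Type*) [Field K] {α : Type*} (g : Equiv.Perm α) (q : ℕ) :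
    Module.End K (α →₀ K) := ∑ i ∈ Finset.range q, permLin K g ^ i

/-- Chains supported on fixed points. -/
noncomputable def fixLin (K : Type*) [Field K] {α : Type*} (g : Equiv.Perm α) :
    Submodule K (α →₀ K) := Finsupp.supported K K {s | g s = s}

theorem mem_fixLin {x : α →₀ K} : x ∈ fixLin K g ↔ ∀ s, x s ≠ 0 → g s = s := by
  unfold fixLin
  rw [Finsupp.mem_supported]
  constructor
  · intro h s hs
    exact h (Finsupp.mem_support_iff.2 hs)
  · intro h s hs
    exact h s (Finsupp.mem_support_iff.1 hs)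

/-- Projection onto the fixed part. -/
noncomputable def piLin (K : Type*) [Field K] {α : Type*} (g : Equiv.Perm α) :
    Module.End K (α →₀ K) where
  toFun x := by
    classical
    exact x.filter (fun s => g s = s)
  map_add' x y := by
    classical
    ext s
    simp only [Finsupp.filter_apply, Finsupp.add_apply]
    split_ifs <;> simp
  map_smul' c x := by
    classical
    ext s
    simp only [Finsupp.filter_apply, Finsupp.smul_apply, RingHom.id_apply]
    split_ifs <;> simp

theorem piLin_apply_fixed (x : α →₀ K) {s : α} (h : g s = s) : piLin K g x s = x s := by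
  classical
  change (x.filter (fun s => g s = s)) s = _
  rw [Finsupp.filter_apply_pos (fun s => g s = s) x h]

theorem piLin_apply_nonfixed (x : α →₀ K) {s : α} (h : ¬ g s = s) : piLin K g x s = 0 := by
  classical
  change (x.filter (fun s => g s = s)) s = _
  rw [Finsupp.filter_apply_neg (fun s => g s = s) x h]

theorem inv_apply_fixed {s : α} (h : g s = s) : g⁻¹ s = s := by
  rw [Equiv.Perm.inv_eq_iff_eq]
  exact h.symm

theorem piLin_permLin (x : α →₀ K) : piLin K g (permLin K g x) = piLin K g x := by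
  ext s
  by_cases h : g s = s
  · rw [piLin_apply_fixed g _ h, piLin_apply_fixed g _ h, permLin_apply, inv_apply_fixed g h]
  · rw [piLin_apply_nonfixed g _ h, piLin_apply_nonfixed g _ h]

theorem piLin_tauLin (x : α →₀ K) : piLin K g (tauLin K g x) = 0 := by
  change piLin K g (x - permLin K g x) = 0
  rw [map_sub, piLin_permLin, sub_self]

theorem piLin_pow (i : ℕ) (x : α →₀ K) : piLin K g ((permLin K g ^ i) x) = piLin K g x := by
  induction i with
  | zero => simp
  | succ i ih =>
    rw [pow_succ', Module.End.mul_apply, piLin_permLin, ih]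

theorem piLin_sigLin {q : ℕ} (hq : (q : K) = 0) (x : α →₀ K) :
    piLin K g (sigLin K g q x) = 0 := by
  unfold sigLin
  rw [LinearMap.sum_apply, map_sum]
  simp only [piLin_pow]
  rw [Finset.sum_const, Finset.card_range, ← Nat.cast_smul_eq_nsmul K, hq, zero_smul]

theorem piLin_of_mem {x : α →₀ K} (hx : x ∈ fixLin K g) : piLin K g x = x := by
  rw [mem_fixLin] at hx
  ext s
  by_cases h : g s = s
  · rw [piLin_apply_fixed g _ h]
  · rw [piLin_apply_nonfixed g _ h]
    by_contra h0
    exact h (hx s (Ne.symm h0))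

theorem permLin_of_mem {x : α →₀ K} (hx : x ∈ fixLin K g) : permLin K g x = x := by
  rw [mem_fixLin] at hx
  ext s
  rw [permLin_apply]
  by_cases h : g s = s
  · rw [inv_apply_fixed g h]
  · have h1 : x s = 0 := by
      by_contra h0
      exact h (hx s h0)
    have h2 : x (g⁻¹ s) = 0 := by
      by_contra h0
      have h3 := hx _ h0
      apply h
      have h4 : g (g⁻¹ s) = s := by simp
      have h5 : g⁻¹ s = s := h3.symm.trans h4
      have h6 : g s = g (g⁻¹ s) := by rw [h5]
      rw [h6]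
      exact h4
    rw [h1, h2]

theorem sigLin_of_mem {q : ℕ} (hq : (q : K) = 0) {x : α →₀ K} (hx : x ∈ fixLin K g) :
    sigLin K g q x = 0 := by
  have hp : ∀ i : ℕ, (permLin K g ^ i) x = x := by
    intro i
    induction i with
    | zero => simp
    | succ i ih => rw [pow_succ', Module.End.mul_apply, ih, permLin_of_mem g hx]
  unfold sigLin
  rw [LinearMap.sum_apply]
  simp only [hp]
  rw [Finset.sum_const, Finset.card_range, ← Nat.cast_smul_eq_nsmul K, hq, zero_smul]

theorem tauLin_of_mem {x : α →₀ K} (hx : x ∈ fixLin K g) : tauLin K g x = 0 := by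
  change x - permLin K g x = 0
  rw [permLin_of_mem g hx, sub_self]

theorem tauLin_sigLin {q : ℕ} (hg : g ^ q = 1) (x : α →₀ K) :
    tauLin K g (sigLin K g q x) = 0 := by
  have : tauLin K g * sigLin K g q = 1 - permLin K g ^ q := by
    unfold tauLin sigLin
    exact mul_neg_geom_sum (permLin K g) q
  have h2 := congrArg (fun f : Module.End K (α →₀ K) => f x) this
  simp only [Module.End.mul_apply] at h2
  rw [h2, permLin_pow_eq_one g hg]
  simp

theorem sigLin_tauLin {q : ℕ} (hg : g ^ q = 1) (x : α →₀ K) :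
    sigLin K g q (tauLin K g x) = 0 := by
  have : sigLin K g q * tauLin K g = 1 - permLin K g ^ q := by
    unfold tauLin sigLin
    exact geom_sum_mul_neg (permLin K g) q
  have h2 := congrArg (fun f : Module.End K (α →₀ K) => f x) this
  simp only [Module.End.mul_apply] at h2
  rw [h2, permLin_pow_eq_one g hg]
  simp

theorem fixed_of_pow_fixed {q : ℕ} (hq : q.Prime) (hg : g ^ q = 1) {s : α} {m : ℕ} (hm : 0 < m)
    (hmq : m < q) (hs : (g ^ m) s = s) : g s = s := by
  have hcop : Nat.Coprime m q := by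
    rw [Nat.coprime_comm]
    exact (Nat.Prime.coprime_iff_not_dvd hq).2 (fun h => absurd (Nat.le_of_dvd hm h) (by omega))
  obtain ⟨a, -, ha⟩ := Nat.exists_mul_mod_eq_one_of_coprime hcop hq.one_lt
  have h1 : g ^ (m * a) = g := by
    rw [pow_eq_pow_mod _ hg, ha, pow_one]
  have h2 : ∀ b : ℕ, ((g ^ m) ^ b) s = s := by
    intro b
    induction b with
    | zero => simp
    | succ b ih => rw [pow_succ, Equiv.Perm.mul_apply, hs, ih]
  have h3 := h2 a
  rw [← pow_mul, h1] at h3
  exact h3

theorem pow_inj_on {q : ℕ} (hq : q.Prime) (hg : g ^ q = 1) {s : α} (hs : g s ≠ s) {i j : ℕ}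
    (hi : i < q) (hj : j < q) (h : (g ^ i) s = (g ^ j) s) : i = j := by
  by_contra hne
  wlog hij : i < j generalizing i j
  · exact this hj hi h.symm (Ne.symm hne) (by omega)
  apply hs
  refine fixed_of_pow_fixed g hq hg (m := j - i) (by omega) (by omega) ?_
  have h1 : (g ^ i) ((g ^ (j - i)) s) = (g ^ i) s := by
    rw [← Equiv.Perm.mul_apply, ← pow_add, show i + (j - i) = j by omega]
    exact h.symm
  exact (g ^ i).injective h1

theorem sigLin_single (q : ℕ) (s : α) (c : K) (t : α) :
    sigLin K g q (Finsupp.single s c) t =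
      ∑ i ∈ Finset.range q, (Finsupp.single ((g ^ i) s) c : α →₀ K) t := by
  unfold sigLin
  rw [LinearMap.sum_apply, Finsupp.finsetSum_apply]
  simp only [permLin_pow_single]

theorem exists_K1_aux {q : ℕ} (hq : q.Prime) (hg : g ^ q = 1) : ∀ (n : ℕ) (x : α →₀ K),
    x.support.card = n → tauLin K g x = 0 → ∃ u, ∃ f ∈ fixLin K g, x = sigLin K g q u + f := by
  classical
  intro n
  induction n using Nat.strong_induction_on with
  | _ n ih =>
  intro x hn hx
  by_cases hF : x ∈ fixLin K g
  · exact ⟨0, x, hF, by simp⟩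
  · rw [mem_fixLin] at hF
    push Not at hF
    obtain ⟨s, hs, hgs⟩ := hF
    have hinv : permLin K g x = x := by
      have : x - permLin K g x = 0 := hx
      exact (sub_eq_zero.1 this).symm
    have hinv2 : ∀ t, x (g t) = x t := by
      intro t
      have := congrArg (fun y => y (g t)) hinv
      simp only [permLin_apply] at this
      simpa using this.symm
    have hinv3 : ∀ i : ℕ, x ((g ^ i) s) = x s := by
      intro i
      induction i with
      | zero => simp
      | succ i ih => rw [pow_succ', Equiv.Perm.mul_apply, hinv2, ih]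
    set u0 : α →₀ K := Finsupp.single s (x s) with hu0
    set y := x - sigLin K g q u0 with hy
    have hyt : ∀ t, y t ≠ 0 → x t ≠ 0 ∧ t ≠ s := by
      intro t ht
      by_cases hj : ∃ j, j < q ∧ (g ^ j) s = t
      · obtain ⟨j, hjq, rfl⟩ := hj
        exfalso
        apply ht
        rw [hy, Finsupp.sub_apply, hu0, sigLin_single, Finset.sum_eq_single j]
        · simp [hinv3]
        · intro b hb hbj
          rw [Finsupp.single_apply, if_neg]
          intro hh
          exact hbj (pow_inj_on g hq hg hgs (Finset.mem_range.1 hb) hjq hh)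
        · intro hh
          exact absurd (Finset.mem_range.2 hjq) hh
      · have h0 : sigLin K g q u0 t = 0 := by
          rw [hu0, sigLin_single]
          apply Finset.sum_eq_zero
          intro i hi
          rw [Finsupp.single_apply, if_neg]
          intro hh
          exact hj ⟨i, Finset.mem_range.1 hi, hh⟩
        have hne : t ≠ s := by
          rintro rfl
          exact hj ⟨0, hq.pos, by simp⟩
        rw [hy, Finsupp.sub_apply, h0, sub_zero] at ht
        exact ⟨ht, hne⟩
    have hsub : y.support ⊂ x.support := by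
      refine Finset.ssubset_iff_of_subset ?_ |>.2 ⟨s, Finsupp.mem_support_iff.2 hs, ?_⟩
      · intro t ht
        exact Finsupp.mem_support_iff.2 (hyt t (Finsupp.mem_support_iff.1 ht)).1
      · intro hh
        exact (hyt s (Finsupp.mem_support_iff.1 hh)).2 rfl
    have hcard : y.support.card < n := by
      rw [← hn]
      exact Finset.card_lt_card hsub
    have hτy : tauLin K g y = 0 := by
      rw [hy, map_sub, hx, tauLin_sigLin g hg, sub_zero]
    obtain ⟨u', f, hf, h⟩ := ih _ hcard y rfl hτy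
    refine ⟨u0 + u', f, hf, ?_⟩
    rw [map_add, add_assoc, ← h, hy]
    abel

theorem exists_K1 {q : ℕ} (hq : q.Prime) (hg : g ^ q = 1) (x : α →₀ K) (hx : tauLin K g x = 0) :
    ∃ u, ∃ f ∈ fixLin K g, x = sigLin K g q u + f :=
  exists_K1_aux g hq hg _ x rfl hx

theorem exists_K2 [Finite α] {q : ℕ} (hq : q.Prime) (hqK : (q : K) = 0) (hg : g ^ q = 1)
    (x : α →₀ K) (hx : sigLin K g q x = 0) :
    ∃ u, ∃ f ∈ fixLin K g, x = tauLin K g u + f := by
  have h1 : LinearMap.ker (tauLin K g) = LinearMap.range (sigLin K g q) ⊔ fixLin K g := by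
    apply le_antisymm
    · intro y hy
      obtain ⟨u, f, hf, h⟩ := exists_K1 g hq hg y hy
      rw [h]
      exact Submodule.add_mem_sup ⟨u, rfl⟩ hf
    · apply sup_le
      · rintro _ ⟨u, rfl⟩
        exact tauLin_sigLin g hg u
      · intro y hy
        exact tauLin_of_mem g hy
  have h2 : LinearMap.range (sigLin K g q) ⊓ fixLin K g = ⊥ := by
    rw [eq_bot_iff]
    rintro y ⟨⟨u, rfl⟩, hy⟩
    have := piLin_of_mem g hy
    rw [piLin_sigLin g hqK] at this
    exact this.symm
  have h3 : LinearMap.range (tauLin K g) ⊓ fixLin K g = ⊥ := by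
    rw [eq_bot_iff]
    rintro y ⟨⟨u, rfl⟩, hy⟩
    have := piLin_of_mem g hy
    rw [piLin_tauLin g] at this
    exact this.symm
  have h4 : LinearMap.range (tauLin K g) ⊔ fixLin K g ≤ LinearMap.ker (sigLin K g q) := by
    apply sup_le
    · rintro _ ⟨u, rfl⟩
      exact sigLin_tauLin g hg u
    · intro y hy
      exact sigLin_of_mem g hqK hy
  have e1 := Submodule.finrank_sup_add_finrank_inf_eq (LinearMap.range (sigLin K g q)) (fixLin K g)
  have e2 := Submodule.finrank_sup_add_finrank_inf_eq (LinearMap.range (tauLin K g)) (fixLin K g)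
  rw [h2, finrank_bot] at e1
  rw [h3, finrank_bot] at e2
  have e3 := LinearMap.finrank_range_add_finrank_ker (tauLin K g)
  have e4 := LinearMap.finrank_range_add_finrank_ker (sigLin K g q)
  rw [h1] at e3
  have h5 : LinearMap.range (tauLin K g) ⊔ fixLin K g = LinearMap.ker (sigLin K g q) := by
    apply Submodule.eq_of_le_of_finrank_eq h4
    omega
  have hxm : x ∈ LinearMap.range (tauLin K g) ⊔ fixLin K g := by
    rw [h5]
    exact hx
  obtain ⟨y, ⟨u, rfl⟩, f, hf, h⟩ := Submodule.mem_sup.1 hxm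
  exact ⟨u, f, hf, h.symm⟩

end PermLin

end Vale.Agent.Lib.P240
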