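import Vale.Agent.Lib.P240.Chains
import Vale.Agent.Lib.P240.SmithAbstract

namespace Vale.Agent.Lib.P240

variable {P : Type*} [PartialOrder P]

/-- The action of an automorphism on chains. -/
def chainPerm (T : P ≃o P) (k : ℕ) : Equiv.Perm (Fin k ↪o P) where
  toFun s := s.trans T.toOrderEmbedding
  invFun s := s.trans T.symm.toOrderEmbedding
  left_inv s := by ext i; simp
  right_inv s := by ext i; simp

theorem chainPerm_apply (T : P ≃o P) (k : ℕ) (s : Fin k ↪o P) (i : Fin k) :
    chainPerm T k s i = T (s i) := rfl

theorem chainPerm_pow (T : P ≃o P) (k n : ℕ) (s : Fin k ↪o P) (i : Fin k) :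
    ((chainPerm T k) ^ n) s i = (T ^ n) (s i) := by
  induction n with
  | zero => simp
  | succ n ih =>
    rw [pow_succ', Equiv.Perm.mul_apply, chainPerm_apply, ih, pow_succ', RelIso.mul_apply]

theorem chainPerm_pow_eq_one {T : P ≃o P} {q : ℕ} (hT : T ^ q = 1) (k : ℕ) :
    (chainPerm T k) ^ q = 1 := by
  ext s i
  rw [chainPerm_pow, hT]
  rfl

section

variable {K : Type*} [Field K]

theorem permLin_eq_chainPush (T : P ≃o P) (k : ℕ) :
    permLin K (chainPerm T k) = chainPush K T.toOrderEmbedding k := rfl

theorem boundary_permLin (T : P ≃o P) (k : ℕ) (x : ChainSpace K P (k + 1)) :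
    permLin K (chainPerm T k) (boundary K P k x) = boundary K P k (permLin K (chainPerm T (k + 1)) x) := by
  rw [permLin_eq_chainPush, permLin_eq_chainPush, boundary_chainPush]

theorem boundary_permLin_pow (T : P ≃o P) (k i : ℕ) (x : ChainSpace K P (k + 1)) :
    (permLin K (chainPerm T k) ^ i) (boundary K P k x) =
      boundary K P k ((permLin K (chainPerm T (k + 1)) ^ i) x) := by
  induction i generalizing x with
  | zero => simp
  | succ i ih =>
    rw [pow_succ, pow_succ, Module.End.mul_apply, Module.End.mul_apply, boundary_permLin, ih]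

theorem boundary_mem_fix (T : P ≃o P) (k : ℕ) (x : ChainSpace K P (k + 1))
    (hx : x ∈ fixLin K (chainPerm T (k + 1))) : boundary K P k x ∈ fixLin K (chainPerm T k) := by
  rw [← Finsupp.sum_single x, Finsupp.sum, map_sum]
  apply Submodule.sum_mem
  intro s hs
  rw [boundary_single_eq]
  apply Submodule.smul_mem
  apply Submodule.sum_mem
  intro i _
  apply Finsupp.single_mem_supported
  have hs' : chainPerm T (k + 1) s = s := (mem_fixLin _).1 hx s (Finsupp.mem_support_iff.1 hs)
  change chainPerm T k ((Fin.succAboveOrderEmb i).trans s) = (Fin.succAboveOrderEmb i).trans s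
  ext j
  rw [chainPerm_apply]
  have := congrArg (fun ρ : Fin (k + 1) ↪o P => ρ (i.succAbove j)) hs'
  simpa [chainPerm_apply] using this

theorem chains_subsingleton [Finite P] (k : ℕ) (hk : Nat.card P + 1 ≤ k) :
    Subsingleton (ChainSpace K P k) := by
  classical
  letI : Fintype P := Fintype.ofFinite P
  have : IsEmpty (Fin k ↪o P) := by
    constructor
    intro σ
    have := Fintype.card_le_of_injective σ σ.injective
    simp only [Fintype.card_fin] at this
    rw [Nat.card_eq_fintype_card] at hk
    omega
  exact inferInstance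

/-- The Smith data of an automorphism of prime order of a poset with exact chain complex. -/
noncomputable def smithData [Finite P] {q : ℕ} (hqK : (q : K) = 0) (hq : q.Prime) (T : P ≃o P)
    (hT : T ^ q = 1) (h : ReducedAcyclic K P) :
    SmithData K (fun k => ChainSpace K P k) where
  d := boundary K P
  Z := IsCyc K P
  τ k := tauLin K (chainPerm T k)
  σ k := sigLin K (chainPerm T k) q
  π k := piLin K (chainPerm T k)
  F k := fixLin K (chainPerm T k)
  Z_succ _ _ := Iff.rfl
  dd k x := boundary_boundary k x
  exact k z hz := (reducedAcyclic_iff.1 h k z hz).imp fun _ hw => hw.symm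
  τd k x := by
    change boundary K P k x - permLin K (chainPerm T k) (boundary K P k x) =
      boundary K P k (x - permLin K (chainPerm T (k + 1)) x)
    rw [map_sub, boundary_permLin]
  σd k x := by
    unfold sigLin
    rw [LinearMap.sum_apply, LinearMap.sum_apply, map_sum]
    exact Finset.sum_congr rfl fun i _ => boundary_permLin_pow T k i x
  Fd k x hx := boundary_mem_fix T k x hx
  πF k x hx := piLin_of_mem _ hx
  πτ k x := piLin_tauLin _ x
  πσ k x := piLin_sigLin _ hqK x
  στ k x := sigLin_tauLin _ (chainPerm_pow_eq_one hT k) x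
  τσ k x := tauLin_sigLin _ (chainPerm_pow_eq_one hT k) x
  σF k x hx := sigLin_of_mem _ hqK hx
  K1 k x hx := exists_K1 _ hq (chainPerm_pow_eq_one hT k) x hx
  K2 k x hx := by
    haveI : Finite (Fin k ↪o P) :=
      Finite.of_injective (fun σ : Fin k ↪o P => (σ : Fin k → P)) DFunLike.coe_injective
    exact exists_K2 _ hq hqK (chainPerm_pow_eq_one hT k) x hx

/-- The inclusion of the fixed subposet of `T`. -/
def fixEmb (T : P ≃o P) : {x : P // T x = x} ↪o P := OrderEmbedding.subtype _

theorem mem_range_chainPush_of_fix (T : P ≃o P) (k : ℕ) (x : ChainSpace K P k)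
    (hx : x ∈ fixLin K (chainPerm T k)) : x ∈ LinearMap.range (chainPush K (fixEmb T) k) := by
  rw [← Finsupp.sum_single x, Finsupp.sum]
  apply Submodule.sum_mem
  intro s hs
  have hs' : chainPerm T k s = s := (mem_fixLin _).1 hx s (Finsupp.mem_support_iff.1 hs)
  have hi : ∀ i, T (s i) = s i := by
    intro i
    have := congrArg (fun ρ : Fin k ↪o P => ρ i) hs'
    simpa [chainPerm_apply] using this
  let s' : Fin k ↪o {x : P // T x = x} :=
    OrderEmbedding.ofStrictMono (fun i => ⟨s i, hi i⟩) (fun a b hab => s.strictMono hab)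
  refine ⟨Finsupp.single s' (x s), ?_⟩
  rw [chainPush_single]
  congr 1

theorem chainPush_mem_fix (T : P ≃o P) (k : ℕ) (x : ChainSpace K {x : P // T x = x} k) :
    chainPush K (fixEmb T) k x ∈ fixLin K (chainPerm T k) := by
  induction x using Finsupp.induction_linear with
  | zero => simp
  | add a b ha hb =>
    rw [map_add]
    exact Submodule.add_mem _ ha hb
  | single s c =>
    rw [chainPush_single]
    apply Finsupp.single_mem_supported
    change chainPerm T k (s.trans (fixEmb T)) = s.trans (fixEmb T)
    ext i
    rw [chainPerm_apply]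
    exact (s i).2

/-- **Smith's theorem** for an automorphism of prime order `q` over a field of characteristic `q`. -/
theorem smith_step [Finite P] {q : ℕ} (hqK : (q : K) = 0) (hq : q.Prime) (T : P ≃o P)
    (hT : T ^ q = 1) (h : ReducedAcyclic K P) : ReducedAcyclic K {x : P // T x = x} := by
  rw [reducedAcyclic_iff]
  intro k z hz
  let S := smithData hqK hq T hT h
  obtain ⟨f, hf, hzf⟩ := S.fixed_exact (Nat.card P + 1) (fun k hk => chains_subsingleton k hk) k
    (chainPush K (fixEmb T) k z) (chainPush_mem_fix T k z) (chainPush_isCyc (fixEmb T) k z hz)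
  obtain ⟨f', rfl⟩ := mem_range_chainPush_of_fix T (k + 1) f hf
  refine ⟨f', ?_⟩
  apply chainPush_injective (fixEmb T) k
  rw [hzf]
  exact (boundary_chainPush (fixEmb T) k f').symm

end

end Vale.Agent.Lib.P240
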